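import Mathlib.Algebra.Field.Basic
import Mathlib.Algebra.Field.ZMod
import Mathlib.Tactic.NormNum.Prime
import Mathlib.Tactic.IntervalCases
import Mathlib.Algebra.Group.Subgroup.Basic
import Mathlib.Data.Finite.Prod
import Mathlib.Tactic.Ring
import Mathlib.Tactic.FieldSimp
import Mathlib.Tactic.LinearCombination
import Mathlib.Tactic.Group

/-!
Two by two matrices of determinant one: the group, traces, conjugation by invertible matrices,
generation by root subgroups.
-/

set_option autoImplicit false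

namespace Vale.Agent.P183.H552

/-- Matrices `p q / r s` of determinant one. -/
structure SL (F : Type) [CommRing F] : Type where
  p : F
  q : F
  r : F
  s : F
  det : p * s - q * r = 1

namespace SL

section Ring

variable {F : Type} [CommRing F]

@[ext] theorem ext' {x y : SL F} (h1 : x.p = y.p) (h2 : x.q = y.q) (h3 : x.r = y.r)
    (h4 : x.s = y.s) : x = y := by
  cases x; cases y; simp_all

instance [DecidableEq F] : DecidableEq (SL F) := fun x y =>
  decidable_of_iff (x.p = y.p ∧ x.q = y.q ∧ x.r = y.r ∧ x.s = y.s)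
    ⟨fun h => ext' h.1 h.2.1 h.2.2.1 h.2.2.2, fun h => by subst h; exact ⟨rfl, rfl, rfl, rfl⟩⟩

instance : One (SL F) := ⟨⟨1, 0, 0, 1, by ring⟩⟩
instance : Mul (SL F) := ⟨fun x y => ⟨x.p * y.p + x.q * y.r, x.p * y.q + x.q * y.s,
  x.r * y.p + x.s * y.r, x.r * y.q + x.s * y.s, by
    linear_combination x.det * (y.p * y.s - y.q * y.r) + y.det⟩⟩
instance : Inv (SL F) := ⟨fun x => ⟨x.s, -x.q, -x.r, x.p, by linear_combination x.det⟩⟩

@[simp] theorem one_p : (1 : SL F).p = 1 := rfl
@[simp] theorem one_q : (1 : SL F).q = 0 := rfl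
@[simp] theorem one_r : (1 : SL F).r = 0 := rfl
@[simp] theorem one_s : (1 : SL F).s = 1 := rfl
@[simp] theorem mul_p (x y : SL F) : (x * y).p = x.p * y.p + x.q * y.r := rfl
@[simp] theorem mul_q (x y : SL F) : (x * y).q = x.p * y.q + x.q * y.s := rfl
@[simp] theorem mul_r (x y : SL F) : (x * y).r = x.r * y.p + x.s * y.r := rfl
@[simp] theorem mul_s (x y : SL F) : (x * y).s = x.r * y.q + x.s * y.s := rfl
@[simp] theorem inv_p (x : SL F) : (x⁻¹).p = x.s := rfl
@[simp] theorem inv_q (x : SL F) : (x⁻¹).q = -x.q := rfl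
@[simp] theorem inv_r (x : SL F) : (x⁻¹).r = -x.r := rfl
@[simp] theorem inv_s (x : SL F) : (x⁻¹).s = x.p := rfl

instance : Group (SL F) where
  mul_assoc x y z := by ext <;> simp <;> ring
  one_mul x := by ext <;> simp
  mul_one x := by ext <;> simp
  inv_mul_cancel x := by
    ext
    · simp; linear_combination x.det
    · simp; ring
    · simp; ring
    · simp; linear_combination x.det

instance [Finite F] : Finite (SL F) :=
  Finite.of_injective (fun x : SL F => (x.p, x.q, x.r, x.s)) (fun x y h => by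
    simp only [Prod.mk.injEq] at h
    exact ext' h.1 h.2.1 h.2.2.1 h.2.2.2)

/-- The trace. -/
def tr (x : SL F) : F := x.p + x.s

theorem tr_conj (k x : SL F) : tr (k * x * k⁻¹) = tr x := by
  simp only [tr, mul_p, mul_s, mul_q, mul_r, inv_p, inv_q, inv_r, inv_s]
  linear_combination (x.p + x.s) * k.det

theorem tr_inv (x : SL F) : tr x⁻¹ = tr x := by
  simp only [tr, inv_p, inv_s]
  ring

theorem tr_mul_inv (x y : SL F) : tr (x * y⁻¹) = tr x * tr y - tr (x * y) := by
  simp only [tr, mul_p, mul_s, inv_p, inv_q, inv_r, inv_s]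
  ring

/-- The basic trace identity for elements of trace `-1`. -/
theorem tr_step (x y : SL F) (hx : tr x = -1) (hy : tr y = -1) :
    tr (x * y * x⁻¹ * y) = 1 + tr (x * y) - tr (x * y) ^ 2 := by
  obtain ⟨p, q, r, s, hd⟩ := x
  obtain ⟨p', q', r', s', hd'⟩ := y
  simp only [tr, mul_p, mul_s, mul_q, mul_r, inv_p, inv_q, inv_r, inv_s] at *
  obtain rfl : s = -1 - p := by linear_combination hx
  obtain rfl : s' = -1 - p' := by linear_combination hy
  grind

end Ring

section Field

variable {F : Type} [Field F]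

/-- Upper unipotent matrices. -/
def up (z : F) : SL F := ⟨1, z, 0, 1, by ring⟩
/-- Lower unipotent matrices. -/
def lo (z : F) : SL F := ⟨1, 0, z, 1, by ring⟩
/-- Diagonal matrices. -/
def dg (z : F) (hz : z ≠ 0) : SL F := ⟨z, 0, 0, z⁻¹, by rw [mul_inv_cancel₀ hz]; ring⟩

@[simp] theorem up_p (z : F) : (up z).p = 1 := rfl
@[simp] theorem up_q (z : F) : (up z).q = z := rfl
@[simp] theorem up_r (z : F) : (up z).r = 0 := rfl
@[simp] theorem up_s (z : F) : (up z).s = 1 := rfl
@[simp] theorem lo_p (z : F) : (lo z).p = 1 := rfl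
@[simp] theorem lo_q (z : F) : (lo z).q = 0 := rfl
@[simp] theorem lo_r (z : F) : (lo z).r = z := rfl
@[simp] theorem lo_s (z : F) : (lo z).s = 1 := rfl

/-- Elements with nonzero lower left entry are products of unipotent matrices. -/
theorem eq_of_r_ne (g : SL F) (hg : g.r ≠ 0) :
    g = up ((g.p - 1) / g.r) * lo g.r * up ((g.s - 1) / g.r) := by
  obtain ⟨p, q, r, s, hd⟩ := g
  simp only at hg
  ext
  · simp; field_simp; ring
  · simp; field_simp; linear_combination -hd
  · simp
  · simp; field_simp; ring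

/-- A subgroup that contains all upper unipotent matrices with entries in a set and ... -/
theorem top_of_unip (K : Subgroup (SL F)) (h1 : ∀ z, up z ∈ K) (h2 : ∀ z, lo z ∈ K) : K = ⊤ := by
  rw [Subgroup.eq_top_iff']
  have key : ∀ g : SL F, g.r ≠ 0 → g ∈ K := by
    intro g hg
    rw [eq_of_r_ne g hg]
    exact K.mul_mem (K.mul_mem (h1 _) (h2 _)) (h1 _)
  intro g
  by_cases hg : g.r = 0
  · have h3 : g * lo 1 ∈ K := by
      apply key
      have hs : g.s ≠ 0 := by
        intro h
        have := g.det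
        rw [hg, h] at this
        simp at this
      simpa [hg] using hs
    exact (K.mul_mem_cancel_right (h2 1)).1 h3
  · exact key g hg

/-- If all upper unipotent matrices and one matrix that is not upper triangular are in `K`, then
`K` is the whole group. -/
theorem top_of_up (K : Subgroup (SL F)) (h1 : ∀ z, up z ∈ K) (g : SL F) (hg : g ∈ K)
    (hr : g.r ≠ 0) : K = ⊤ := by
  -- the lower unipotent element `lo g.r`
  have h2 : lo g.r ∈ K := by
    have h3 := eq_of_r_ne g hr
    have h4 : lo g.r = (up ((g.p - 1) / g.r))⁻¹ * g * (up ((g.s - 1) / g.r))⁻¹ := by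
      rw [eq_mul_inv_iff_mul_eq, eq_inv_mul_iff_mul_eq, ← mul_assoc]
      exact h3.symm
    rw [h4]
    exact K.mul_mem (K.mul_mem (K.inv_mem (h1 _)) hg) (K.inv_mem (h1 _))
  -- the antidiagonal element
  have h5 : (⟨0, -g.r⁻¹, g.r, 0, by field_simp; ring⟩ : SL F) ∈ K := by
    have h6 : (⟨0, -g.r⁻¹, g.r, 0, by field_simp; ring⟩ : SL F) =
        up (-g.r⁻¹) * lo g.r * up (-g.r⁻¹) := by
      ext
      · simp [hr]
      · simp [hr]
      · simp
      · simp [hr]
    rw [h6]
    exact K.mul_mem (K.mul_mem (h1 _) h2) (h1 _)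
  refine top_of_unip K h1 fun z => ?_
  have h7 : lo z = (⟨0, -g.r⁻¹, g.r, 0, by field_simp; ring⟩ : SL F) * up (-z / g.r ^ 2) *
      (⟨0, -g.r⁻¹, g.r, 0, by field_simp; ring⟩ : SL F)⁻¹ := by
    ext
    · simp [hr]
    · simp
    · simp; field_simp
    · simp [hr]
  rw [h7]
  exact K.mul_mem (K.mul_mem h5 (h1 _)) (K.inv_mem h5)

/-- Conjugation by the matrix `α β / γ δ` of determinant `D⁻¹`. -/
def cj (α β γ δ D : F) (h : D * (α * δ - β * γ) = 1) : SL F →* SL F where
  toFun x := ⟨D * ((α * x.p + β * x.r) * δ - (α * x.q + β * x.s) * γ),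
    D * ((α * x.q + β * x.s) * α - (α * x.p + β * x.r) * β),
    D * ((γ * x.p + δ * x.r) * δ - (γ * x.q + δ * x.s) * γ),
    D * ((γ * x.q + δ * x.s) * α - (γ * x.p + δ * x.r) * β), by
      linear_combination (D * (α * δ - β * γ)) ^ 2 * x.det + (D * (α * δ - β * γ) + 1) * h⟩
  map_one' := by
    ext <;> simp only [one_p, one_q, one_r, one_s]
    · linear_combination h
    · ring
    · ring
    · linear_combination h
  map_mul' x y := by
    ext <;> simp only [mul_p, mul_q, mul_r, mul_s]
    · linear_combination (-D * ((α * (x.p * y.p + x.q * y.r) + β * (x.r * y.p + x.s * y.r)) * δ -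
        (α * (x.p * y.q + x.q * y.s) + β * (x.r * y.q + x.s * y.s)) * γ)) * h
    · linear_combination (-D * ((α * (x.p * y.q + x.q * y.s) + β * (x.r * y.q + x.s * y.s)) * α -
        (α * (x.p * y.p + x.q * y.r) + β * (x.r * y.p + x.s * y.r)) * β)) * h
    · linear_combination (-D * ((γ * (x.p * y.p + x.q * y.r) + δ * (x.r * y.p + x.s * y.r)) * δ -
        (γ * (x.p * y.q + x.q * y.s) + δ * (x.r * y.q + x.s * y.s)) * γ)) * h
    · linear_combination (-D * ((γ * (x.p * y.q + x.q * y.s) + δ * (x.r * y.q + x.s * y.s)) * α -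
        (γ * (x.p * y.p + x.q * y.r) + δ * (x.r * y.p + x.s * y.r)) * β)) * h

theorem cj_inj (α β γ δ D : F) (h : D * (α * δ - β * γ) = 1) :
    Function.Injective (cj α β γ δ D h) := by
  have h' : D * (δ * α - (-β) * (-γ)) = 1 := by linear_combination h
  have key : ∀ x, cj δ (-β) (-γ) α D h' (cj α β γ δ D h x) = x := by
    intro x
    ext <;> simp only [cj, MonoidHom.coe_mk, OneHom.coe_mk]
    · linear_combination (x.p * (D * (α * δ - β * γ) + 1)) * h
    · linear_combination (x.q * (D * (α * δ - β * γ) + 1)) * h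
    · linear_combination (x.r * (D * (α * δ - β * γ) + 1)) * h
    · linear_combination (x.s * (D * (α * δ - β * γ) + 1)) * h
  intro x y hxy
  rw [← key x, ← key y, hxy]

/-- If an image of `K` under an injective endomorphism is everything, so is `K`. -/
theorem top_of_map (f : SL F →* SL F) (hf : Function.Injective f) (K : Subgroup (SL F))
    (h : K.map f = ⊤) : K = ⊤ := by
  rw [Subgroup.eq_top_iff']
  intro g
  have h1 : f g ∈ K.map f := by rw [h]; trivial
  obtain ⟨k, hk, hkg⟩ := h1
  rwa [← hf hkg]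

end Field

end SL

end Vale.Agent.P183.H552
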