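import Vale.Agent.P183.H552.Fld
import Vale.Agent.P183.H552.Grp

/-!
Two elements of trace `-1` of `SL(2, 343)`, the trace of whose product is not in the prime field,
generate the group.
-/

set_option autoImplicit false

namespace Vale.Agent.P183.H552

open SL

/-- One step: `t ↦ 1 + t - t²` or `t ↦ t² - t`. -/
def stp (t : Q) (b : Bool) : Q := if b then 1 + t - t * t else t * t - t

/-- The traces of products of two elements of trace `-1` of `K`. -/
def TrS (K : Subgroup (SL Q)) (t : Q) : Prop :=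
  ∃ x ∈ K, ∃ y ∈ K, tr x = -1 ∧ tr y = -1 ∧ tr (x * y) = t

theorem TrS.step {K : Subgroup (SL Q)} {t : Q} (h : TrS K t) (b : Bool) : TrS K (stp t b) := by
  obtain ⟨x, hx, y, hy, h1, h2, h3⟩ := h
  have h4 : x * y * x⁻¹ ∈ K := K.mul_mem (K.mul_mem hx hy) (K.inv_mem hx)
  have h5 := tr_step x y h1 h2
  rw [h3] at h5
  cases b
  · refine ⟨x * y * x⁻¹, h4, y⁻¹, K.inv_mem hy, by rw [tr_conj, h2], by rw [tr_inv, h2], ?_⟩
    rw [tr_mul_inv, h5, tr_conj, h2]
    simp only [stp]
    simp
    ring
  · refine ⟨x * y * x⁻¹, h4, y, hy, by rw [tr_conj, h2], h2, ?_⟩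
    rw [h5]
    simp only [stp]
    simp
    ring

theorem TrS.steps {K : Subgroup (SL Q)} (l : List Bool) {t : Q} (h : TrS K t) :
    TrS K (l.foldl stp t) := by
  induction l generalizing t with
  | nil => exact h
  | cons b l ih => exact ih (h.step b)

end Vale.Agent.P183.H552
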