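import Vale.Agent.P183.H996.Dual

/-!
Explicit orders on eight elements.
-/

set_option autoImplicit false

namespace Vale.Agent.P183.H552

open Vale.Agent.P183 Vale.Agent.P183.H996

/-- The set `{0, ..., 7}`, ordered so that `0` is least, `7` is greatest, and the only further
strict relations `x < y` are the pairs `(x, y)` in the list. -/
def Ord8 (_l : List (ℕ × ℕ)) : Type := Fin 8

instance (l : List (ℕ × ℕ)) : LE (Ord8 l) :=
  ⟨fun x y => Fin.val (n := 8) x = Fin.val (n := 8) y ∨ Fin.val (n := 8) x = 0 ∨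
    Fin.val (n := 8) y = 7 ∨ (Fin.val (n := 8) x, Fin.val (n := 8) y) ∈ l⟩

/-- The three lattices that remain. -/
def exc3 : ℕ → List (ℕ × ℕ)
  | 0 => [(1, 3), (1, 4), (1, 5), (2, 3)]
  | 1 => [(1, 2), (1, 4), (1, 5), (2, 4), (3, 4)]
  | _ => [(1, 3), (1, 4), (1, 5), (2, 3), (2, 4), (2, 5), (3, 4), (3, 5)]

/-- Two fences `1 < 5, 6` and `2 < 3, 4`. -/
def twoV : List (ℕ × ℕ) := [(1, 5), (1, 6), (2, 3), (2, 4)]

theorem iso_of {c : ℕ} {l : List (ℕ × ℕ)}
    (h : ∀ x y : Fin 8, ordB 8 c x.val y.val = true ↔ (x.val = y.val ∨ x.val = 0 ∨ y.val = 7 ∨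
      (x.val, y.val) ∈ l)) : Nonempty (FO 8 c ≃o Ord8 l) :=
  ⟨⟨Equiv.refl (Fin 8), fun {x y} => (h x y).symm⟩⟩

theorem iso_78 : Nonempty (FO 8 78 ≃o Ord8 (exc3 0)) := iso_of (by decide +kernel)
theorem iso_121 : Nonempty (FO 8 121 ≃o Ord8 (exc3 1)) := iso_of (by decide +kernel)
theorem iso_510 : Nonempty (FO 8 510 ≃o Ord8 (exc3 2)) := iso_of (by decide +kernel)
theorem iso_1108 : Nonempty (FO 8 1108 ≃o Ord8 twoV) := iso_of (by decide +kernel)

end Vale.Agent.P183.H552
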