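import Vale.Agent.P183.H287.Top

/-!
The stabiliser of a nonisotropic point is a maximal subgroup.
-/

set_option autoImplicit false
set_option linter.all false

namespace Vale.Agent.P183.H552.AB

open Matrix Vale.Agent.P183.H287 Vale.Agent.P183.H552

variable {K : Subgroup U}

theorem col_norm (g : U) : N (g.m 0 0) + N (g.m 1 0) + N (g.m 2 0) = 1 := by
  have e := congrFun (congrFun g.h' 0) 0
  simp only [Matrix.mul_apply, Fin.sum_univ_three, st_apply, Matrix.one_apply_eq] at e
  unfold N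
  rw [← e]; ring

theorem row_norm (g : U) : N (g.m 0 0) + N (g.m 0 1) + N (g.m 0 2) = 1 := by
  have e := congrFun (congrFun g.h 0) 0
  simp only [Matrix.mul_apply, Fin.sum_univ_three, st_apply, Matrix.one_apply_eq] at e
  unfold N
  rw [← e]

/-- (B) -/
theorem tt_of_zero (hK : QQ ≤ K) (g : U) (hg : g ∈ K) (h0 : g.m 0 0 = 0) : tt ∈ K := by
  have e := col_norm g
  have hN0 : N (0 : F16) = 0 := by unfold N; rw [zero_mul]
  rw [h0, hN0, zero_add] at e
  have hn : N (F16.cj (g.m 1 0)) + N (F16.cj (g.m 2 0)) = 1 := by rw [N_cj, N_cj]; exact e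
  have hg1 : su _ _ hn * g ∈ K := K.mul_mem (hK (su_mem hn)) hg
  have hq : tt⁻¹ * (su _ _ hn * g) ∈ QQ := by
    apply QQ_of_col
    · simp only [U.mul_m, U.inv_m, U.inv_b, tt, su, mc_false, st_apply, Matrix.mul_apply,
        Fin.sum_univ_three]
      simp [h0]
    · simp only [U.mul_m, U.inv_m, U.inv_b, tt, su, mc_false, st_apply, Matrix.mul_apply,
        Fin.sum_univ_three]
      simp [h0]
      exact two_eq _ _
  have : tt = (su _ _ hn * g) * (tt⁻¹ * (su _ _ hn * g))⁻¹ := by group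
  rw [this]
  exact K.mul_mem hg1 (K.inv_mem (hK hq))

/-- Transitivity. -/
theorem reach (hK : QQ ≤ K) {a b c b' c' : F16} (hn : N b + N c ≠ 0)
    (he : N b' + N c' = N b + N c) (h : InS K a b c) : InS K a b' c' := by
  obtain ⟨i, hi, hci⟩ : ∃ i : F16, i * (N b + N c) = 1 ∧ F16.cj i = i := by
    refine ⟨(N b + N c)⁻¹, inv_mul_cancel₀ hn, ?_⟩
    rw [map_inv₀, map_add]
    congr 1
    unfold N
    simp only [map_mul, F16.cj_cj]
    ring
  have h1 : b' * F16.cj b' + c' * F16.cj c' = b * F16.cj b + c * F16.cj c := he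
  have h2 : i * (b * F16.cj b + c * F16.cj c) = 1 := hi
  have hp : N ((b' * F16.cj b + F16.cj c' * c) * i) + N ((b' * F16.cj c + F16.cj c' * b) * i) = 1 := by
    unfold N
    simp only [map_mul, map_add, F16.cj_cj, hci]
    have t := F16.add_self (i ^ 2 * (b' * c' * F16.cj b * F16.cj c + F16.cj b' * F16.cj c' * b * c))
    linear_combination (i ^ 2 * (b * F16.cj b + c * F16.cj c)) * h1 +
      (i * (b * F16.cj b + c * F16.cj c) + 1) * h2 + t
  have h3 := rot hK hp h
  have e1 : (b' * F16.cj b + F16.cj c' * c) * i * b + (b' * F16.cj c + F16.cj c' * b) * i * c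
      = b' := by
    have t := F16.add_self (i * F16.cj c' * b * c)
    linear_combination b' * h2 + t
  have e2 : F16.cj ((b' * F16.cj c + F16.cj c' * b) * i) * b +
      F16.cj ((b' * F16.cj b + F16.cj c' * c) * i) * c = c' := by
    simp only [map_mul, map_add, F16.cj_cj, hci]
    have t := F16.add_self (i * F16.cj b' * b * c)
    linear_combination c' * h2 + t
  rw [e1, e2] at h3
  exact h3

/-- Multiplication from the left. -/
theorem lmul (g : U) (hg : g ∈ K) {a b c : F16} (h : InS K a b c) :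
    ∃ k ∈ K, k.m 0 0 = g.m 0 0 * cb g.b a + g.m 0 1 * cb g.b b + g.m 0 2 * cb g.b c := by
  obtain ⟨k, hk, h1, h2, h3⟩ := h
  refine ⟨g * k, K.mul_mem hg hk, ?_⟩
  simp [Matrix.mul_apply, Fin.sum_univ_three, h1, h2, h3]

theorem N_cb (b : Bool) (x : F16) : N (cb b x) = N x := by
  cases b
  · rfl
  · exact N_cj x

theorem cb_invol (b : Bool) (x : F16) : cb b (cb b x) = x := by
  rw [cb_cb]; cases b <;> rfl

theorem pow3 : ∀ a b : F16, N a + N b ≠ 0 → (N a + N b) ^ 3 = 1 := by decide +kernel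

theorem exw (r s y : F16) (hn : N r + N s ≠ 0) (hy : N y = (N r + N s + 1) ^ 2) :
    ∃ w z : F16, N w + N z = N r + N s ∧ r * w + s * z = y := by
  obtain ⟨d, _, hd⟩ := exists_d r s hn
  have h3 := pow3 r s hn
  set n := N r + N s with hndef
  have hcn : F16.cj n = n := by
    rw [hndef, map_add]
    unfold N
    simp only [map_mul, F16.cj_cj]
    ring
  have hn' : r * F16.cj r + s * F16.cj s = n := rfl
  have hd' : d * F16.cj d = n := hd
  have hy' : y * F16.cj y = (n + 1) ^ 2 := hy
  refine ⟨y * n ^ 2 * F16.cj r + d * s, y * n ^ 2 * F16.cj s + d * r, ?_, ?_⟩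
  · unfold N
    simp only [map_mul, map_add, map_pow, F16.cj_cj, hcn]
    have t1 := F16.add_self (y * n ^ 2 * F16.cj r * F16.cj d * F16.cj s + F16.cj y * n ^ 2 * r * d * s)
    have t2 := F16.add_self (n ^ 6 + n ^ 2)
    linear_combination (n ^ 4 * (r * F16.cj r + s * F16.cj s)) * hy' +
      (r * F16.cj r + s * F16.cj s) * hd' + ((n + 1) ^ 2 * n ^ 4 + n) * hn' +
      (n * (n ^ 3 + 1) + n ^ 2) * h3 + t1 + t2
  · have t := F16.add_self (d * r * s)
    linear_combination (y * n ^ 2) * hn' + y * h3 + t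

/-- (A1) -/
theorem zero_of_ne (hK : QQ ≤ K) (g : U) (hg : g ∈ K) (h : N (g.m 0 0) ≠ 1) :
    ∃ g' ∈ K, g'.m 0 0 = 0 := by
  have hr := row_norm g
  have hc := col_norm g
  set x := g.m 0 0 with hx
  have two : ∀ z : F16, z + z = 0 := F16.add_self
  have hr' : N (g.m 0 1) + N (g.m 0 2) = N x + 1 := by
    have t := two (N x)
    linear_combination hr - t
  have hc' : N (g.m 1 0) + N (g.m 2 0) = N x + 1 := by
    have t := two (N x)
    linear_combination hc - t
  have hn : N x + 1 ≠ 0 := by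
    intro e
    apply h
    have t := two (1 : F16)
    linear_combination e - t
  obtain ⟨w, z, h1, h2⟩ := exw (g.m 0 1) (g.m 0 2) (x * cb g.b x) (by rw [hr']; exact hn) (by
    rw [N_mul, N_cb, hr']
    have t := two (1 : F16)
    linear_combination (-2 * N x - 2) * t)
  have hin : InS K x (g.m 1 0) (g.m 2 0) := ⟨g, hg, rfl, rfl, rfl⟩
  have hin' : InS K x (cb g.b w) (cb g.b z) := by
    refine reach hK (by rw [hc']; exact hn) ?_ hin
    rw [N_cb, N_cb, h1, hc', hr']
  obtain ⟨k, hk, hk'⟩ := lmul g hg hin'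
  refine ⟨k, hk, ?_⟩
  rw [hk', cb_invol, cb_invol, add_assoc, h2, ← hx]
  exact two _

theorem exm : ∀ y : F16, N y = 1 → ∀ u : F16, u ≠ 0 → ∀ v : F16, N u = N v →
    ∃ m : F16, N m = 1 ∧ N (y + m * u + F16.cj m * v) ≠ 1 := by
  decide +kernel

theorem N_eq_zero : ∀ x : F16, N x = 0 → x = 0 := by decide +kernel

/-- (A) -/
theorem zero_of_not_mem (hK : QQ ≤ K) (g : U) (hg : g ∈ K) (hq : g ∉ QQ) :
    ∃ g' ∈ K, g'.m 0 0 = 0 := by
  by_cases hx : N (g.m 0 0) = 1
  · have hr := row_norm g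
    have hc := col_norm g
    rw [hx] at hr hc
    have two : ∀ z : F16, z + z = 0 := F16.add_self
    have hr' : N (g.m 0 1) = N (g.m 0 2) := by
      have t := two (N (g.m 0 2))
      linear_combination hr - t
    have hc' : N (g.m 1 0) = N (g.m 2 0) := by
      have t := two (N (g.m 2 0))
      linear_combination hc - t
    have hc1 : g.m 1 0 ≠ 0 := by
      intro e
      apply hq
      apply QQ_of_col e
      apply N_eq_zero
      rw [← hc', e]; unfold N; rw [zero_mul]
    have hr1 : g.m 0 1 ≠ 0 := by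
      intro e
      apply hc1
      have e2 : g.m 0 2 = 0 := by
        apply N_eq_zero
        rw [← hr', e]; unfold N; rw [zero_mul]
      have e3 := congrFun (congrFun g.h 1) 0
      simp [Matrix.mul_apply, Fin.sum_univ_three, e, e2] at e3
      rcases e3 with h | h
      · exact h
      · exfalso
        rw [h] at hx
        unfold N at hx
        rw [zero_mul] at hx
        exact zero_ne_one hx
    obtain ⟨m, hm, hm'⟩ := exm (g.m 0 0 * cb g.b (g.m 0 0)) (by rw [N_mul, N_cb, hx, one_mul])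
      (g.m 0 1 * cb g.b (g.m 1 0)) (mul_ne_zero hr1 (by
        intro e
        apply hc1
        rw [← cb_invol g.b (g.m 1 0), e, map_zero])) (g.m 0 2 * cb g.b (g.m 2 0)) (by
        rw [N_mul, N_mul, N_cb, N_cb, hr', hc'])
    have hN0 : N (0 : F16) = 0 := by unfold N; rw [zero_mul]
    have hm1 : N (cb g.b m) + N 0 = 1 := by rw [N_cb, hm, hN0, add_zero]
    have hin : InS K (g.m 0 0) (g.m 1 0) (g.m 2 0) := ⟨g, hg, rfl, rfl, rfl⟩
    have hin' := rot hK hm1 hin
    obtain ⟨k, hk, hk'⟩ := lmul g hg hin'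
    apply zero_of_ne hK k hk
    have e : k.m 0 0 = g.m 0 0 * cb g.b (g.m 0 0) + m * (g.m 0 1 * cb g.b (g.m 1 0)) +
        F16.cj m * (g.m 0 2 * cb g.b (g.m 2 0)) := by
      rw [hk']
      simp only [map_add, map_mul, map_zero, cb_invol, cb_cj]
      ring
    rw [e]
    exact hm'
  · exact zero_of_ne hK g hg hx

end Vale.Agent.P183.H552.AB
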