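import Vale.Agent.P183.H552.Path

/-!
Two elements of trace `-1` of `SL(2, 343)`, the trace of whose product is not in the prime field,
generate the group.
-/

set_option autoImplicit false

namespace Vale.Agent.P183.H552

open SL

/-- `diag (2, 4)`. -/
def x0 : SL Q := ⟨2, 0, 0, 4, by decide⟩
/-- The second generator. -/
def y0 : SL Q := ⟨⟨5, 2, 0⟩, 1, ⟨4, 6, 3⟩, ⟨1, 5, 0⟩, by decide⟩
/-- An upper triangular word. -/
def D1 : SL Q := y0 * x0⁻¹ * y0 * x0 * y0 * x0 * y0 * x0 * y0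

theorem v0_eq : x0 * D1 * x0⁻¹ * D1⁻¹ = up ⟨2, 2, 1⟩ := by decide +kernel
theorem v1_eq : D1 * up ⟨2, 2, 1⟩ * D1⁻¹ = up ⟨2, 1, 6⟩ := by decide +kernel
theorem v2_eq : D1 * up ⟨2, 1, 6⟩ * D1⁻¹ = up ⟨2, 4, 4⟩ := by decide +kernel

theorem up_pow (c : Q) (n : ℕ) : up c ^ n = up (n • c) := by
  induction n with
  | zero => rw [pow_zero, zero_smul]; rfl
  | succ n ih =>
    rw [pow_succ, ih, succ_nsmul]
    refine SL.ext' ?_ ?_ ?_ ?_
    · simp only [mul_p, up_p, up_q, up_r]; ring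
    · simp only [mul_q, up_p, up_q, up_s]; ring
    · simp only [mul_r, up_p, up_r, up_s]; ring
    · simp only [mul_s, up_q, up_r, up_s]; ring

theorem lin_eq : ∀ z : Q, z = (4 * z.a + 2 * z.b + 3 * z.c).val • (⟨2, 2, 1⟩ : Q) +
    (5 * z.a + 3 * z.b + 5 * z.c).val • (⟨2, 1, 6⟩ : Q) +
    (2 * z.a + 2 * z.b + 6 * z.c).val • (⟨2, 4, 4⟩ : Q) := by
  decide +kernel

theorem up_add (a b : Q) : up (a + b) = up a * up b := by
  refine SL.ext' ?_ ?_ ?_ ?_
  · simp only [mul_p, up_p, up_q, up_r]; ring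
  · simp only [mul_q, up_p, up_q, up_s]; ring
  · simp only [mul_r, up_p, up_r, up_s]; ring
  · simp only [mul_s, up_q, up_r, up_s]; ring

theorem top0 (K : Subgroup (SL Q)) (hx : x0 ∈ K) (hy : y0 ∈ K) : K = ⊤ := by
  have hx' := K.inv_mem hx
  have hD : D1 ∈ K := by
    unfold D1
    exact K.mul_mem (K.mul_mem (K.mul_mem (K.mul_mem (K.mul_mem (K.mul_mem (K.mul_mem (K.mul_mem
      hy hx') hy) hx) hy) hx) hy) hx) hy
  have hD' := K.inv_mem hD
  have h0 : up ⟨2, 2, 1⟩ ∈ K := by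
    rw [← v0_eq]
    exact K.mul_mem (K.mul_mem (K.mul_mem hx hD) hx') hD'
  have h1 : up ⟨2, 1, 6⟩ ∈ K := by
    rw [← v1_eq]
    exact K.mul_mem (K.mul_mem hD h0) hD'
  have h2 : up ⟨2, 4, 4⟩ ∈ K := by
    rw [← v2_eq]
    exact K.mul_mem (K.mul_mem hD h1) hD'
  refine top_of_up K (fun z => ?_) y0 hy (by decide)
  rw [lin_eq z, up_add, up_add, ← up_pow, ← up_pow, ← up_pow]
  exact K.mul_mem (K.mul_mem (K.pow_mem h0 _) (K.pow_mem h1 _)) (K.pow_mem h2 _)

theorem sevenQ : (7 : Q) = 0 := by decide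

theorem top1 (K : Subgroup (SL Q)) (hx : x0 ∈ K) (y : SL Q) (hy : y ∈ K) (h1 : tr y = -1)
    (h2 : tr (x0 * y) = ⟨0, 3, 0⟩) : K = ⊤ := by
  have h7 := sevenQ
  have h2' : 2 * y.p + 4 * y.s = ⟨0, 3, 0⟩ := by
    rw [← h2]
    simp only [tr, mul_p, mul_s, x0]
    ring
  have h1' : y.p + y.s = -1 := h1
  have hp : y.p = ⟨5, 2, 0⟩ := by
    have h3 : y.p = 3 * ⟨0, 3, 0⟩ + 12 := by
      linear_combination 3 * h2' - 12 * h1' + y.p * h7
    rw [h3]; decide
  have hs : y.s = ⟨1, 5, 0⟩ := by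
    have h3 : y.s = -1 - y.p := by linear_combination h1'
    rw [h3, hp]; decide
  have hqr : y.q * y.r = ⟨4, 6, 3⟩ := by
    have h3 : y.q * y.r = y.p * y.s - 1 := by linear_combination -y.det
    rw [h3, hp, hs]; decide
  have hq : y.q ≠ 0 := by
    intro h
    rw [h, zero_mul] at hqr
    exact absurd hqr (by decide)
  have hD : y.q * (y.q⁻¹ * 1 - 0 * 0) = 1 := by field_simp; ring
  refine top_of_map (cj y.q⁻¹ 0 0 1 y.q hD) (cj_inj _ _ _ _ _ _) K (top0 _ ?_ ?_)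
  · refine ⟨x0, hx, ?_⟩
    have h4 : y.q * y.q⁻¹ = 1 := mul_inv_cancel₀ hq
    refine SL.ext' ?_ ?_ ?_ ?_ <;> simp only [cj, x0, MonoidHom.coe_mk, OneHom.coe_mk]
    · linear_combination 2 * h4
    · ring
    · ring
    · linear_combination 4 * h4
  · refine ⟨y, hy, ?_⟩
    have h4 : y.q * y.q⁻¹ = 1 := mul_inv_cancel₀ hq
    refine SL.ext' ?_ ?_ ?_ ?_ <;> simp only [cj, y0, MonoidHom.coe_mk, OneHom.coe_mk]
    · linear_combination y.p * h4 + hp
    · linear_combination (y.q * y.q⁻¹ + 1) * h4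
    · linear_combination hqr
    · linear_combination y.s * h4 + hs

theorem tr_cj (α β γ δ D : Q) (h : D * (α * δ - β * γ) = 1) (x : SL Q) :
    tr (cj α β γ δ D h x) = tr x := by
  simp only [tr, cj, MonoidHom.coe_mk, OneHom.coe_mk]
  linear_combination (x.p + x.s) * h

/-- Elements of trace `-1` are conjugate to `diag (2, 4)` in characteristic `7`. -/
theorem exists_cj {F : Type} [Field F] (h7 : (7 : F) = 0) (x : SL F) (hx : tr x = -1) :
    ∃ (α β γ δ D : F) (h : D * (α * δ - β * γ) = 1), (cj α β γ δ D h x).p = 2 ∧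
      (cj α β γ δ D h x).q = 0 ∧ (cj α β γ δ D h x).r = 0 ∧ (cj α β γ δ D h x).s = 4 := by
  obtain ⟨p, q, r, s, hd⟩ := x
  simp only [tr] at hx
  obtain rfl : s = -1 - p := by linear_combination hx
  by_cases hr : r = 0
  · subst hr
    have hpp : (p - 2) * (p - 4) = 0 := by linear_combination -hd + (1 - p) * h7
    by_cases hq : q = 0
    · subst hq
      rcases mul_eq_zero.1 hpp with h | h
      · obtain rfl : p = 2 := by linear_combination h
        refine ⟨1, 0, 0, 1, 1, by ring, ?_⟩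
        simp only [cj, MonoidHom.coe_mk, OneHom.coe_mk]
        refine ⟨by ring, by ring, by ring, by linear_combination -h7⟩
      · obtain rfl : p = 4 := by linear_combination h
        refine ⟨0, 1, -1, 0, 1, by ring, ?_⟩
        simp only [cj, MonoidHom.coe_mk, OneHom.coe_mk]
        refine ⟨by linear_combination -h7, by ring, by ring, by ring⟩
    · have h2 : q * q⁻¹ = 1 := mul_inv_cancel₀ hq
      generalize q⁻¹ = i at h2
      have h1 : (3 * i) * ((-1 - p - 2) * (-q) - (-q) * (-1 - p - 4)) = 1 := by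
        linear_combination -6 * h2 - h7
      refine ⟨-1 - p - 2, -q, -1 - p - 4, -q, 3 * i, h1, ?_⟩
      simp only [cj, MonoidHom.coe_mk, OneHom.coe_mk]
      refine ⟨by grind, by grind, by grind, by grind⟩
  · have h2 : r * r⁻¹ = 1 := mul_inv_cancel₀ hr
    generalize r⁻¹ = i at h2
    have h1 : (4 * i) * (r * (4 - p) - (2 - p) * r) = 1 := by
      linear_combination 8 * h2 + h7
    refine ⟨r, 2 - p, r, 4 - p, 4 * i, h1, ?_⟩
    simp only [cj, MonoidHom.coe_mk, OneHom.coe_mk]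
    refine ⟨by grind, by grind, by grind, by grind⟩
theorem top_of_trace (K : Subgroup (SL Q)) {t : Q} (h : TrS K t) (ht : t.b ≠ 0 ∨ t.c ≠ 0) :
    K = ⊤ := by
  obtain ⟨x, hx, y, hy, h1, h2, h3⟩ := h.base ht
  obtain ⟨α, β, γ, δ, D, hD, hp, hq, hr, hs⟩ := exists_cj sevenQ x h1
  have hx0 : cj α β γ δ D hD x = x0 := SL.ext' hp hq hr hs
  refine top_of_map (cj α β γ δ D hD) (cj_inj _ _ _ _ _ _) K ?_
  refine top1 _ ⟨x, hx, hx0⟩ (cj α β γ δ D hD y) ⟨y, hy, rfl⟩ ?_ ?_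
  · rw [tr_cj, h2]
  · rw [← hx0, ← map_mul, tr_cj, h3]

end Vale.Agent.P183.H552
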