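import Vale.Agent.P183.H552.MonoCls
import Vale.Agent.P183.H552.Top
import Vale.Agent.P183.Bdl.B2

/-!
The eight overgroups of the dicyclic group `mono 3` of order twelve in `SL(2, 343)`.
-/

set_option autoImplicit false

namespace Vale.Agent.P183.H552

open SL Vale.Agent.P183

/-- A diagonal element of order nine. -/
def v1 : SL Q := ⟨⟨0, 1, 0⟩, 0, 0, ⟨0, 0, 4⟩, by decide⟩
/-- A diagonal element of order nineteen. -/
def v2 : SL Q := ⟨⟨1, 1, 1⟩, 0, 0, ⟨6, 1, 0⟩, by decide⟩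

instance (n : ℕ) (g : SL Q) : Decidable (g ∈ mono n) :=
  inferInstanceAs (Decidable ((g.q = 0 ∧ g.r = 0 ∧ g.p ^ (2 * n) = 1) ∨
    (g.p = 0 ∧ g.s = 0 ∧ g.q ^ (2 * n) = 1)))

theorem v1_mem : v1 ∈ mono 9 ∧ v1 ∉ mono 3 ∧ v1 ∉ mono 57 ∧ v1 ∈ mono 171 := by
  decide +kernel

theorem v2_mem : v2 ∉ mono 9 ∧ v2 ∉ mono 3 ∧ v2 ∈ mono 57 ∧ v2 ∈ mono 171 := by
  decide +kernel

theorem v1_prm : v1 ∉ prm := fun h => absurd h.1 (by decide)
theorem v2_prm : v2 ∉ prm := fun h => absurd h.1 (by decide)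

theorem mono_le {m n : ℕ} (h : m ∣ n) : mono m ≤ mono n := by
  obtain ⟨k, rfl⟩ := h
  rintro g (⟨h1, h2, h3⟩ | ⟨h1, h2, h3⟩)
  · refine Or.inl ⟨h1, h2, ?_⟩
    rw [← mul_assoc, pow_mul, h3, one_pow]
  · refine Or.inr ⟨h1, h2, ?_⟩
    rw [← mul_assoc, pow_mul, h3, one_pow]

theorem mon_of_mono {n : ℕ} {g : SL Q} (h : g ∈ mono n) : Mon g :=
  h.imp (fun h => ⟨h.1, h.2.1⟩) (fun h => ⟨h.1, h.2.1⟩)

/-- The eight overgroups. -/
def sub (oc : Bool → Subgroup (SL Q)) : ℕ → Subgroup (SL Q)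
  | 0 => mono 3
  | 1 => mono 9
  | 2 => mono 57
  | 3 => oc true
  | 4 => oc false
  | 5 => prm
  | 6 => mono 171
  | _ => ⊤

/-- The codes of the memberships of the four witnesses. -/
def cod : ℕ → ℕ
  | 0 => 0
  | 1 => 1
  | 2 => 2
  | 3 => 4
  | 4 => 8
  | 5 => 12
  | 6 => 3
  | _ => 15

/-- The four witnesses. -/
def wit (y : Bool → SL Q) : ℕ → SL Q
  | 0 => v1
  | 1 => v2
  | 2 => y true
  | _ => y false

theorem ord_aux : (allN 8 fun i => allN 8 fun j => impB (ordB 8 3840 i j)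
    (i == j || i == 0 || j == 7 || (i == 1 && j == 6) || (i == 2 && j == 6) ||
      (i == 3 && j == 5) || (i == 4 && j == 5))) = true := by decide +kernel

theorem ord_aux2 : (allN 8 fun i => allN 8 fun j => impB
    (allN 4 fun k => impB ((cod i).testBit k) ((cod j).testBit k)) (ordB 8 3840 i j)) = true := by
  decide +kernel

theorem ord_aux3 : (allN 8 fun i => allN 8 fun j => impB (ordB 8 3840 i j)
    (impB (ordB 8 3840 j i) (i == j))) = true := by
  decide +kernel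

variable {oc : Bool → Subgroup (SL Q)} {y : Bool → SL Q}

theorem wit_mem (h2 : ∀ e, oc e ≤ prm) (hy : ∀ e, y e ∈ oc e) (hy' : ∀ e, y e ∉ oc (!e))
    (hm : ∀ e, ¬ Mon (y e)) :
    ∀ i < 8, ∀ k < 4, (wit y k ∈ sub oc i ↔ (cod i).testBit k = true) := by
  have hm' : ∀ n e, y e ∉ mono n := fun n e h => hm e (mon_of_mono h)
  have h5 : ∀ e, v1 ∉ oc e := fun e h => v1_prm (h2 e h)
  have h6 : ∀ e, v2 ∉ oc e := fun e h => v2_prm (h2 e h)
  have h7 : ∀ e, y e ∈ prm := fun e => h2 e (hy e)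
  have h8 := hy' true
  have h9 := hy' false
  simp only [Bool.not_true, Bool.not_false] at h8 h9
  obtain ⟨a1, a2, a3, a4⟩ := v1_mem
  obtain ⟨b1, b2, b3, b4⟩ := v2_mem
  intro i hi k hk
  interval_cases i <;> interval_cases k <;>
    simp [sub, wit, cod, *, v1_prm, v2_prm, Nat.testBit, Nat.shiftRight_eq_div_pow]

theorem sub_iff (h1 : ∀ e, mono 3 ≤ oc e) (h2 : ∀ e, oc e ≤ prm) (hy : ∀ e, y e ∈ oc e)
    (hy' : ∀ e, y e ∉ oc (!e)) (hm : ∀ e, ¬ Mon (y e)) (i j : ℕ) (hi : i < 8) (hj : j < 8) :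
    sub oc i ≤ sub oc j ↔ ordB 8 3840 i j = true := by
  constructor
  · intro h
    have h3 := allN_iff.1 (allN_iff.1 ord_aux2 i hi) j hj
    rw [impB_iff] at h3
    apply h3
    rw [allN_iff]
    intro k hk
    rw [impB_iff, ← wit_mem h2 hy hy' hm i hi k hk, ← wit_mem h2 hy hy' hm j hj k hk]
    exact fun h4 => h h4
  · intro h
    have h3 := allN_iff.1 (allN_iff.1 ord_aux i hi) j hj
    rw [impB_iff] at h3
    have h4 := h3 h
    simp only [Bool.or_eq_true, Bool.and_eq_true, beq_iff_eq] at h4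
    rcases h4 with (((((rfl | rfl) | rfl) | ⟨rfl, rfl⟩) | ⟨rfl, rfl⟩) | ⟨rfl, rfl⟩) | ⟨rfl, rfl⟩
    · exact le_refl _
    · interval_cases j
      · exact le_refl _
      · exact mono_le (by norm_num)
      · exact mono_le (by norm_num)
      · exact h1 true
      · exact h1 false
      · exact (h1 true).trans (h2 true)
      · exact mono_le (by norm_num)
      · exact le_top
    · exact le_top
    · exact mono_le (by norm_num)
    · exact mono_le (by norm_num)
    · exact h2 true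
    · exact h2 false

/-- **The interval.** -/
theorem interval_iso (h1 : ∀ e, mono 3 ≤ oc e) (h2 : ∀ e, oc e ≤ prm) (hy : ∀ e, y e ∈ oc e)
    (hy' : ∀ e, y e ∉ oc (!e)) (hm : ∀ e, ¬ Mon (y e))
    (hcls : ∀ K : Subgroup (SL Q), mono 3 ≤ K → K ≤ prm → (∃ g ∈ K, ¬ Mon g) →
      K = oc true ∨ K = oc false ∨ K = prm)
    (htr : ∀ K : Subgroup (SL Q), mono 3 ≤ K → (∀ t, TrS K t → Pm t) → (∃ g ∈ K, ¬ Mon g) →
      K ≤ prm) :
    Nonempty (FO 8 3840 ≃o {S : Subgroup (SL Q) // mono 3 ≤ S}) := by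
  have hle := sub_iff h1 h2 hy hy' hm
  have h0 : ∀ i < 8, mono 3 ≤ sub oc i := by
    intro i hi
    refine (hle 0 i (by norm_num) hi).2 ?_
    simp [ordB]
  let f : FO 8 3840 → {S : Subgroup (SL Q) // mono 3 ≤ S} := fun x => ⟨sub oc x.v, h0 _ x.v_lt⟩
  have hf : ∀ x y : FO 8 3840, f x ≤ f y ↔ x ≤ y := fun x y => hle _ _ x.v_lt y.v_lt
  have hinj : Function.Injective f := by
    intro x z hxz
    have h3 : x ≤ z := (hf x z).1 (le_of_eq hxz)
    have h4 : z ≤ x := (hf z x).1 (le_of_eq hxz.symm)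
    have h5 := allN_iff.1 (allN_iff.1 ord_aux3 x.v x.v_lt) z.v z.v_lt
    rw [impB_iff, impB_iff] at h5
    exact FO.ext (by simpa using h5 h3 h4)
  have hsurj : Function.Surjective f := by
    rintro ⟨S, hS⟩
    have key : ∃ i, i < 8 ∧ S = sub oc i := by
      by_cases hM : ∀ g ∈ S, Mon g
      · rcases mono_cls S hS hM with h | h | h | h
        · exact ⟨0, by norm_num, h⟩
        · exact ⟨1, by norm_num, h⟩
        · exact ⟨2, by norm_num, h⟩
        · exact ⟨6, by norm_num, h⟩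
      · have hM' : ∃ g ∈ S, ¬ Mon g := by
          by_contra hcon
          apply hM
          intro g hg
          by_contra hg'
          exact hcon ⟨g, hg, hg'⟩
        by_cases hT : ∀ t, TrS S t → Pm t
        · rcases hcls S hS (htr S hS hT hM') hM' with h | h | h
          · exact ⟨3, by norm_num, h⟩
          · exact ⟨4, by norm_num, h⟩
          · exact ⟨5, by norm_num, h⟩
        · obtain ⟨t, ht⟩ := not_forall.1 hT
          obtain ⟨ht1, ht2⟩ := Classical.not_imp.1 ht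
          refine ⟨7, by norm_num, top_of_trace S ht1 ?_⟩
          by_contra hcon
          rw [not_or, not_not, not_not] at hcon
          exact ht2 hcon
    obtain ⟨i, hi, rfl⟩ := key
    exact ⟨FO.mk i hi, rfl⟩
  exact ⟨⟨Equiv.ofBijective f ⟨hinj, hsurj⟩, fun {x y} => hf x y⟩⟩

end Vale.Agent.P183.H552
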