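import Vale.Agent.P183.H552.Fld
import Vale.Agent.P183.H552.Grp

/-!
The monomial subgroups and the subgroup of matrices over the prime field of `SL(2, 343)`.
-/

set_option autoImplicit false

namespace Vale.Agent.P183.H552

/-- A monomial matrix. -/
def Mon (g : SL Q) : Prop := (g.q = 0 ∧ g.r = 0) ∨ (g.p = 0 ∧ g.s = 0)

/-- Monomial matrices whose nonzero entries have order dividing the even number `2 n`. -/
def mono (n : ℕ) : Subgroup (SL Q) where
  carrier := {g | (g.q = 0 ∧ g.r = 0 ∧ g.p ^ (2 * n) = 1) ∨ (g.p = 0 ∧ g.s = 0 ∧ g.q ^ (2 * n) = 1)}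
  one_mem' := Or.inl ⟨rfl, rfl, one_pow _⟩
  mul_mem' := by
    rintro x y (⟨h1, h2, h3⟩ | ⟨h1, h2, h3⟩) (⟨h4, h5, h6⟩ | ⟨h4, h5, h6⟩)
    · left
      refine ⟨by simp [h1, h4], by simp [h2, h5], ?_⟩
      simp only [SL.mul_p, h1, zero_mul, add_zero, mul_pow, h3, h6, one_mul]
    · right
      refine ⟨by simp [h1, h4], by simp [h2, h5], ?_⟩
      simp only [SL.mul_q, h1, zero_mul, add_zero, mul_pow, h3, h6, one_mul]
    · right
      refine ⟨by simp [h1, h5], by simp [h2, h4], ?_⟩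
      have h7 := y.det
      rw [h4, zero_mul, sub_zero] at h7
      have h8 : y.s ^ (2 * n) = 1 := by
        have h9 : (y.p * y.s) ^ (2 * n) = 1 := by rw [h7, one_pow]
        rwa [mul_pow, h6, one_mul] at h9
      simp only [SL.mul_q, h1, zero_mul, zero_add, mul_pow, h3, h8, one_mul]
    · left
      refine ⟨by simp [h1, h5], by simp [h2, h4], ?_⟩
      have h7 := y.det
      rw [h4, zero_mul, zero_sub] at h7
      have h8 : y.r ^ (2 * n) = 1 := by
        have h9 : (-(y.q * y.r)) ^ (2 * n) = 1 := by rw [h7, one_pow]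
        rwa [Even.neg_pow (even_two_mul n), mul_pow, h6, one_mul] at h9
      simp only [SL.mul_p, h1, zero_mul, zero_add, mul_pow, h3, h8, one_mul]
  inv_mem' := by
    rintro x (⟨h1, h2, h3⟩ | ⟨h1, h2, h3⟩)
    · left
      refine ⟨by simp [h1], by simp [h2], ?_⟩
      have h7 := x.det
      rw [h1, zero_mul, sub_zero] at h7
      have h9 : (x.p * x.s) ^ (2 * n) = 1 := by rw [h7, one_pow]
      simpa [mul_pow, h3] using h9
    · right
      refine ⟨by simpa using h2, by simpa using h1, ?_⟩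
      simp only [SL.inv_q]
      rw [Even.neg_pow (even_two_mul n), h3]

theorem mem_mono {n : ℕ} {g : SL Q} : g ∈ mono n ↔
    (g.q = 0 ∧ g.r = 0 ∧ g.p ^ (2 * n) = 1) ∨ (g.p = 0 ∧ g.s = 0 ∧ g.q ^ (2 * n) = 1) := Iff.rfl

/-- An element of the prime field. -/
def Pm (z : Q) : Prop := z.b = 0 ∧ z.c = 0

instance : DecidablePred Pm := fun z => inferInstanceAs (Decidable (_ ∧ _))

theorem Pm.add {x y : Q} (h : Pm x) (h' : Pm y) : Pm (x + y) := by
  simp [Pm, h.1, h.2, h'.1, h'.2]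
theorem Pm.sub {x y : Q} (h : Pm x) (h' : Pm y) : Pm (x - y) := by
  simp [Pm, h.1, h.2, h'.1, h'.2]
theorem Pm.neg {x : Q} (h : Pm x) : Pm (-x) := by
  simp [Pm, h.1, h.2]
theorem Pm.mul {x y : Q} (h : Pm x) (h' : Pm y) : Pm (x * y) := by
  simp [Pm, h.1, h.2, h'.1, h'.2]

/-- The matrices with entries in the prime field. -/
def prm : Subgroup (SL Q) where
  carrier := {g | Pm g.p ∧ Pm g.q ∧ Pm g.r ∧ Pm g.s}
  one_mem' := ⟨⟨rfl, rfl⟩, ⟨rfl, rfl⟩, ⟨rfl, rfl⟩, ⟨rfl, rfl⟩⟩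
  mul_mem' := by
    rintro x y ⟨h1, h2, h3, h4⟩ ⟨h5, h6, h7, h8⟩
    exact ⟨(h1.mul h5).add (h2.mul h7), (h1.mul h6).add (h2.mul h8), (h3.mul h5).add (h4.mul h7),
      (h3.mul h6).add (h4.mul h8)⟩
  inv_mem' := by
    rintro x ⟨h1, h2, h3, h4⟩
    exact ⟨h4, h2.neg, h3.neg, h1⟩

theorem mem_prm {g : SL Q} : g ∈ prm ↔ Pm g.p ∧ Pm g.q ∧ Pm g.r ∧ Pm g.s := Iff.rfl

end Vale.Agent.P183.H552
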