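import Mathlib.Data.ZMod.Basic
import Mathlib.Tactic.Ring
import Mathlib.Data.Fintype.Prod

/-!
The field with sixteen elements.
-/

set_option autoImplicit false

namespace Vale.Agent.P183.H552

/-- `F_2[x] / (x^4 + x + 1)` -/
@[ext]
structure F16 : Type where
  a : ZMod 2
  b : ZMod 2
  c : ZMod 2
  d : ZMod 2
  deriving DecidableEq

namespace F16

instance : Zero F16 := ⟨⟨0, 0, 0, 0⟩⟩
instance : One F16 := ⟨⟨1, 0, 0, 0⟩⟩
instance : Add F16 := ⟨fun x y => ⟨x.a + y.a, x.b + y.b, x.c + y.c, x.d + y.d⟩⟩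
instance : Neg F16 := ⟨fun x => ⟨-x.a, -x.b, -x.c, -x.d⟩⟩
instance : Mul F16 := ⟨fun x y =>
  ⟨x.a * y.a + (x.b * y.d + x.c * y.c + x.d * y.b),
   x.a * y.b + x.b * y.a + (x.b * y.d + x.c * y.c + x.d * y.b) + (x.c * y.d + x.d * y.c),
   x.a * y.c + x.b * y.b + x.c * y.a + (x.c * y.d + x.d * y.c) + x.d * y.d,
   x.a * y.d + x.b * y.c + x.c * y.b + x.d * y.a + x.d * y.d⟩⟩

@[simp] theorem zero_a : (0 : F16).a = 0 := rfl
@[simp] theorem zero_b : (0 : F16).b = 0 := rfl
@[simp] theorem zero_c : (0 : F16).c = 0 := rfl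
@[simp] theorem zero_d : (0 : F16).d = 0 := rfl
@[simp] theorem one_a : (1 : F16).a = 1 := rfl
@[simp] theorem one_b : (1 : F16).b = 0 := rfl
@[simp] theorem one_c : (1 : F16).c = 0 := rfl
@[simp] theorem one_d : (1 : F16).d = 0 := rfl
@[simp] theorem add_a (x y : F16) : (x + y).a = x.a + y.a := rfl
@[simp] theorem add_b (x y : F16) : (x + y).b = x.b + y.b := rfl
@[simp] theorem add_c (x y : F16) : (x + y).c = x.c + y.c := rfl
@[simp] theorem add_d (x y : F16) : (x + y).d = x.d + y.d := rfl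
@[simp] theorem neg_a (x : F16) : (-x).a = -x.a := rfl
@[simp] theorem neg_b (x : F16) : (-x).b = -x.b := rfl
@[simp] theorem neg_c (x : F16) : (-x).c = -x.c := rfl
@[simp] theorem neg_d (x : F16) : (-x).d = -x.d := rfl
@[simp] theorem mul_a (x y : F16) : (x * y).a =
  x.a * y.a + (x.b * y.d + x.c * y.c + x.d * y.b) := rfl
@[simp] theorem mul_b (x y : F16) : (x * y).b =
  x.a * y.b + x.b * y.a + (x.b * y.d + x.c * y.c + x.d * y.b) + (x.c * y.d + x.d * y.c) := rfl
@[simp] theorem mul_c (x y : F16) : (x * y).c =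
  x.a * y.c + x.b * y.b + x.c * y.a + (x.c * y.d + x.d * y.c) + x.d * y.d := rfl
@[simp] theorem mul_d (x y : F16) : (x * y).d =
  x.a * y.d + x.b * y.c + x.c * y.b + x.d * y.a + x.d * y.d := rfl

instance : CommRing F16 where
  add_assoc x y z := by ext <;> simp <;> ring
  zero_add x := by ext <;> simp
  add_zero x := by ext <;> simp
  add_comm x y := by ext <;> simp <;> ring
  neg_add_cancel x := F16.ext (neg_add_cancel x.a) (neg_add_cancel x.b) (neg_add_cancel x.c)
    (neg_add_cancel x.d)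
  mul_assoc x y z := by ext <;> simp <;> ring
  one_mul x := by ext <;> simp
  mul_one x := by ext <;> simp
  mul_comm x y := by ext <;> simp <;> ring
  left_distrib x y z := by ext <;> simp <;> ring
  right_distrib x y z := by ext <;> simp <;> ring
  zero_mul x := by ext <;> simp
  mul_zero x := by ext <;> simp
  nsmul := nsmulRec
  zsmul := zsmulRec

/-- The components. -/
def equiv : F16 ≃ ZMod 2 × ZMod 2 × ZMod 2 × ZMod 2 where
  toFun x := (x.a, x.b, x.c, x.d)
  invFun p := ⟨p.1, p.2.1, p.2.2.1, p.2.2.2⟩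
  left_inv _ := rfl
  right_inv _ := rfl

instance : Fintype F16 := Fintype.ofEquiv _ equiv.symm

theorem exists_inv : ∀ x : F16, x ≠ 0 → ∃ y : F16, x * y = 1 := by decide +kernel

instance : Field F16 where
  inv x := x ^ 14
  exists_pair_ne := ⟨0, 1, by decide⟩
  mul_inv_cancel := by decide +kernel
  inv_zero := by decide +kernel
  nnqsmul := _
  nnqsmul_def := fun _ _ => rfl
  qsmul := _
  qsmul_def := fun _ _ => rfl

/-- The automorphism `x ↦ x ^ 4`. -/
def cj : F16 →+* F16 where
  toFun x := ⟨x.a + x.b + x.c + x.d, x.b + x.d, x.c + x.d, x.d⟩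
  map_zero' := by decide
  map_one' := by decide
  map_add' := by decide +kernel
  map_mul' := by decide +kernel

@[simp] theorem cj_cj (x : F16) : cj (cj x) = x := by revert x; decide +kernel

theorem add_self (x : F16) : x + x = 0 := by revert x; decide +kernel

theorem neg_eq (x : F16) : -x = x := by revert x; decide +kernel

end F16

end Vale.Agent.P183.H552
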