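import Vale.Agent.P183.H287.Fib
import Vale.Agent.P183.H287.Top
import Vale.Agent.P183.H495.HC
import Vale.Agent.P183.H3.Row4
import Vale.Agent.P183.H996.Dual

/-!
The eight-element lattice `exc3 2` is an interval in the subgroup lattice of a finite group:
the fibre product of two copies of `SU(3, 4) : 2`.
-/

set_option autoImplicit false

namespace Vale.Agent.P183.H552.W

open Matrix Vale.Agent.P183.H287 Vale.Agent.P183.H552 Vale.Agent.P183.H996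

theorem tt_eq : Vale.Agent.P183.H495.tt = Vale.Agent.P183.H287.tt := rfl

/-- an element of order five -/
def ll : F16 := ⟨0, 0, 0, 1⟩

def wa : U where
  m := !![ll * ll * ll, 0, 0; 0, ll, 0; 0, 0, ll]
  b := false
  h := by decide +kernel
  dt := by decide +kernel

def wb : U where
  m := !![1, 0, 0; 0, ll, 0; 0, 0, F16.cj ll]
  b := false
  h := by decide +kernel
  dt := by decide +kernel

theorem wa_Q : wa ∈ QQ := by rw [mem_QQ]; decide +kernel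
theorem wb_Q : wb ∈ QQ := by rw [mem_QQ]; decide +kernel
theorem wa_A : wa ∈ AA := ⟨wa_Q, rfl, by decide +kernel, by decide +kernel, by decide +kernel⟩
theorem wa_B : wa ∉ BB := fun h => absurd h.2.2 (by decide +kernel)
theorem wb_B : wb ∈ BB := ⟨wb_Q, rfl, by decide +kernel⟩
theorem wb_A : wb ∉ AA := fun h => absurd h.2.2.2.2 (by decide +kernel)
theorem wa1 : tt * wa * tt⁻¹ ∈ QQ := by rw [mem_QQ]; decide +kernel
theorem wa2 : tt * wa * tt⁻¹ ∉ AA := fun h => absurd h.2.2.2.2 (by decide +kernel)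
theorem wb1 : tt * wb * tt⁻¹ ∈ QQ := by rw [mem_QQ]; decide +kernel
theorem wb2 : tt * wb * tt⁻¹ ∉ BB := fun h => absurd h.2.2 (by decide +kernel)
theorem wc1 : t12 ∈ TT ⊓ QQ := ⟨rfl, t12_mem⟩
theorem wc2 : tt * t12 * tt⁻¹ ∉ QQ := by rw [mem_QQ]; decide +kernel
theorem tt_T : tt ∈ TT := rfl
theorem tt_Q : tt ∉ QQ := by rw [mem_QQ]; decide +kernel

theorem conj_m {q x : U} (hx : x.b = false) : (q * x * q⁻¹).m = q.m * mc q.b x.m * st q.m := by
  rw [U.mul_m, U.mul_m, U.mul_b, U.inv_m, hx, mc_mc]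
  have : (xor (xor q.b false) q.b) = false := by cases q.b <;> rfl
  rw [this, mc_false]

theorem conj_b {q x : U} (hx : x.b = false) : (q * x * q⁻¹).b = false := by
  rw [U.mul_b, U.mul_b, U.inv_b, hx]
  cases q.b <;> rfl

theorem scal (q : U) : q.m * st q.m = 1 := q.h

theorem BB_conj : ∀ q ∈ QQ, ∀ x ∈ BB, q * x * q⁻¹ ∈ BB := by
  rintro q hq x ⟨h1, h2, h3⟩
  refine ⟨QQ.mul_mem (QQ.mul_mem hq h1) (QQ.inv_mem hq), conj_b h2, ?_⟩
  obtain ⟨q1, q2, q3, q4⟩ := hq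
  obtain ⟨x1, x2, x3, x4⟩ := h1
  have e := congrFun (congrFun q.h 0) 0
  simp only [Matrix.mul_apply, Fin.sum_univ_three, st_apply, q3, q4, Matrix.one_apply_eq,
    zero_mul, add_zero] at e
  rw [conj_m h2]
  simp [Matrix.mul_apply, Fin.sum_univ_three, q1, q2, q3, q4, x1, x2, x3, x4, h3, e]

theorem AA_comm {q x : U} (hq : q ∈ QQ) (hx : x ∈ AA) :
    q.m * mc q.b x.m = mc q.b x.m * q.m := by
  obtain ⟨⟨x1, x2, x3, x4⟩, h0, h1, h2, h3⟩ := hx
  obtain ⟨q1, q2, q3, q4⟩ := hq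
  refine Matrix.ext fun i j => ?_
  fin_cases i <;> fin_cases j <;>
    simp [Matrix.mul_apply, Fin.sum_univ_three, q1, q2, q3, q4, x1, x2, x3, x4, h1, h2, h3,
      mul_comm]

theorem AA_conj : ∀ q ∈ QQ, ∀ x ∈ AA, q * x * q⁻¹ ∈ AA := by
  intro q hq x hx
  have e : (q * x * q⁻¹).m = mc q.b x.m := by
    rw [conj_m hx.2.1, AA_comm hq hx, Matrix.mul_assoc, q.h, Matrix.mul_one]
  have hQ : q * x * q⁻¹ ∈ QQ := QQ.mul_mem (QQ.mul_mem hq hx.1) (QQ.inv_mem hq)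
  obtain ⟨_, h0, h1, h2, h3⟩ := hx
  refine ⟨hQ, conj_b h0, ?_, ?_, ?_⟩ <;> rw [e] <;> simp [h1, h2, h3]

/-- `exc3 2` is an interval in the subgroup lattice of a finite group. -/
theorem gi_510 (hmax : IsCoatom QQ) : GroupInterval (Ord8 (exc3 2)) :=
  ⟨Fi TT, inferInstance, inferInstance, Dg TT QQ,
    fib510 TT QQ AA BB hmax (fun _ hx => ⟨hx.2.1, hx.1⟩) (fun _ hx => ⟨hx.2.1, hx.1⟩) AA_conj
      BB_conj Vale.Agent.P183.H3.h4 tt tt_T tt_Q Vale.Agent.P183.H495.hC wa wb t12 wa_A wa_B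
      wb_B wb_A wa1 wa2 wb1 wb2 wc1 wc2⟩

/-- The stabiliser is a maximal subgroup if (A) and (B) hold. -/
theorem hmax_of
    (hA : ∀ K : Subgroup U, QQ ≤ K → ∀ g ∈ K, g ∉ QQ → ∃ g' ∈ K, g'.m 0 0 = 0)
    (hB : ∀ K : Subgroup U, QQ ≤ K → ∀ g ∈ K, g.m 0 0 = 0 → tt ∈ K) : IsCoatom QQ := by
  refine ⟨fun h => tt_Q (h ▸ Subgroup.mem_top _), fun K hK => ?_⟩
  obtain ⟨g, hg, hgQ⟩ := SetLike.exists_of_lt hK
  obtain ⟨g', hg', h0⟩ := hA K hK.le g hg hgQ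
  exact top_of_t K hK.le (hB K hK.le g' hg' h0)

end Vale.Agent.P183.H552.W
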