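import Vale.Agent.P183.H552.Two
import Vale.Agent.P183.H552.Wit
import Vale.Agent.P183.H552.AB

/-!
Lattices with at most eight elements: two possible exceptions.
-/

set_option autoImplicit false

namespace Vale.Agent.P183.H552

open Vale.Agent.P183.H287 Vale.Agent.P183.H996

/-- The stabiliser is a maximal subgroup of `SU(3, 4) : 2`. -/
theorem isCoatom_QQ : IsCoatom QQ :=
  W.hmax_of (fun _ hK g hg hq => AB.zero_of_not_mem hK g hg hq)
    (fun _ hK g hg h0 => AB.tt_of_zero hK g hg h0)

/-- `exc3 2` is an interval in the subgroup lattice of a finite group. -/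
theorem gi_exc : GroupInterval (Ord8 (exc3 2)) := W.gi_510 isCoatom_QQ

theorem rep_exc : Representable (Ord8 (exc3 2)) := GroupInterval.rep gi_exc

end Vale.Agent.P183.H552
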