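import Mathlib.Data.ZMod.Basic
import Mathlib.Algebra.Field.Basic
import Mathlib.Tactic.Ring
import Mathlib.Tactic.DeriveFintype

/-!
The field with `343` elements, as `F_7[θ]/(θ ^ 3 - 2)`, with computable arithmetic.
-/

set_option autoImplicit false

namespace Vale.Agent.P183.H552

/-- The element `a + b θ + c θ²`, where `θ³ = 2`. -/
structure Q : Type where
  a : ZMod 7
  b : ZMod 7
  c : ZMod 7
deriving DecidableEq, Fintype

namespace Q

@[ext] theorem ext' {x y : Q} (h1 : x.a = y.a) (h2 : x.b = y.b) (h3 : x.c = y.c) : x = y := by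
  cases x; cases y; simp_all

instance : Zero Q := ⟨⟨0, 0, 0⟩⟩
instance : One Q := ⟨⟨1, 0, 0⟩⟩
instance : Add Q := ⟨fun x y => ⟨x.a + y.a, x.b + y.b, x.c + y.c⟩⟩
instance : Neg Q := ⟨fun x => ⟨-x.a, -x.b, -x.c⟩⟩
instance : Sub Q := ⟨fun x y => ⟨x.a - y.a, x.b - y.b, x.c - y.c⟩⟩
instance : Mul Q := ⟨fun x y => ⟨x.a * y.a + 2 * (x.b * y.c + x.c * y.b),
  x.a * y.b + x.b * y.a + 2 * (x.c * y.c), x.a * y.c + x.b * y.b + x.c * y.a⟩⟩
/-- The inverse, by the norm formula. -/
instance : Inv Q := ⟨fun x =>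
  let n : ZMod 7 := (x.a ^ 3 + 2 * x.b ^ 3 + 4 * x.c ^ 3 - 6 * (x.a * x.b * x.c)) ^ 5
  ⟨n * (x.a ^ 2 - 2 * (x.b * x.c)), n * (2 * x.c ^ 2 - x.a * x.b), n * (x.b ^ 2 - x.a * x.c)⟩⟩

theorem zero_def : (0 : Q) = ⟨0, 0, 0⟩ := rfl
theorem one_def : (1 : Q) = ⟨1, 0, 0⟩ := rfl
@[simp] theorem zero_a : (0 : Q).a = 0 := rfl
@[simp] theorem zero_b : (0 : Q).b = 0 := rfl
@[simp] theorem zero_c : (0 : Q).c = 0 := rfl
@[simp] theorem one_a : (1 : Q).a = 1 := rfl
@[simp] theorem one_b : (1 : Q).b = 0 := rfl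
@[simp] theorem one_c : (1 : Q).c = 0 := rfl
@[simp] theorem add_a (x y : Q) : (x + y).a = x.a + y.a := rfl
@[simp] theorem add_b (x y : Q) : (x + y).b = x.b + y.b := rfl
@[simp] theorem add_c (x y : Q) : (x + y).c = x.c + y.c := rfl
@[simp] theorem neg_a (x : Q) : (-x).a = -x.a := rfl
@[simp] theorem neg_b (x : Q) : (-x).b = -x.b := rfl
@[simp] theorem neg_c (x : Q) : (-x).c = -x.c := rfl
@[simp] theorem sub_a (x y : Q) : (x - y).a = x.a - y.a := rfl
@[simp] theorem sub_b (x y : Q) : (x - y).b = x.b - y.b := rfl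
@[simp] theorem sub_c (x y : Q) : (x - y).c = x.c - y.c := rfl
@[simp] theorem mul_a (x y : Q) : (x * y).a = x.a * y.a + 2 * (x.b * y.c + x.c * y.b) := rfl
@[simp] theorem mul_b (x y : Q) : (x * y).b = x.a * y.b + x.b * y.a + 2 * (x.c * y.c) := rfl
@[simp] theorem mul_c (x y : Q) : (x * y).c = x.a * y.c + x.b * y.b + x.c * y.a := rfl

instance : CommRing Q where
  add_assoc x y z := by ext <;> simp [add_assoc]
  zero_add x := by ext <;> simp
  add_zero x := by ext <;> simp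
  add_comm x y := by ext <;> simp [add_comm]
  neg_add_cancel x := by ext <;> simp
  sub_eq_add_neg x y := by ext <;> simp [sub_eq_add_neg]
  mul_assoc x y z := by ext <;> simp <;> ring
  one_mul x := by ext <;> simp
  mul_one x := by ext <;> simp
  mul_comm x y := by ext <;> simp <;> ring
  left_distrib x y z := by ext <;> simp <;> ring
  right_distrib x y z := by ext <;> simp <;> ring
  zero_mul x := by ext <;> simp
  mul_zero x := by ext <;> simp
  nsmul := nsmulRec
  zsmul := zsmulRec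

theorem mul_inv_aux : ∀ x : Q, x ≠ 0 → x * x⁻¹ = 1 := by decide +kernel

instance : Field Q where
  exists_pair_ne := ⟨0, 1, by decide⟩
  mul_inv_cancel := mul_inv_aux
  inv_zero := by decide
  nnqsmul := _
  qsmul := _

end Q

end Vale.Agent.P183.H552
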