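import Vale.Agent.P183.H287.U3

/-!
The transposition `tt`, some diagonal elements, and the centraliser.
-/

set_option autoImplicit false

namespace Vale.Agent.P183.H552

open Matrix Vale.Agent.P183.H287 Vale.Agent.P183.H287.QU

/-- the antidiagonal permutation matrix -/
def ttm : M3 := !![0, 0, 1; 0, 1, 0; 1, 0, 0]

/-- a diagonal matrix -/
def dm (a b c : F16) : M3 := !![a, 0, 0; 0, b, 0; 0, 0, c]

/-- The transposition of the coordinates `0` and `2`. -/
def tt : QU := ⟨ttm, false, by refine Matrix.ext fun i j => ?_; fin_cases i <;> fin_cases j <;> decide +kernel,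
  by rw [Matrix.det_fin_three]; decide +kernel⟩

/-- an element of order five -/
def ll : F16 := F16.mk 8

def d1 : QU := ⟨dm ll (F16.cj ll) 1, false, by refine Matrix.ext fun i j => ?_; fin_cases i <;> fin_cases j <;> decide +kernel,
  by rw [Matrix.det_fin_three]; decide +kernel⟩

def d2 : QU := ⟨dm 1 ll (F16.cj ll), false, by refine Matrix.ext fun i j => ?_; fin_cases i <;> fin_cases j <;> decide +kernel,
  by rw [Matrix.det_fin_three]; decide +kernel⟩

def ss : QU := ⟨1, true, by simp, by simp⟩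

instance (m : M3) : Decidable (Blk m) := by unfold Blk; infer_instance

theorem eqz : ∀ x y z : F16, x * y = z * x → y ≠ z → x = 0 := by decide +kernel

theorem eq_one : ∀ x : F16, F16.cj x = x → x * F16.cj x = 1 → x = 1 := by decide +kernel

theorem d1_mem : d1 ∈ Q0 := by rw [mem_Q0]; decide +kernel
theorem d2_mem : d2 ∈ Q0 := by rw [mem_Q0]; decide +kernel
theorem ss_mem : ss ∈ Q0 := by rw [mem_Q0]; decide +kernel
theorem d1_mem' : tt⁻¹ * d1 * tt ∈ Q0 := by rw [mem_Q0]; decide +kernel
theorem d2_mem' : tt⁻¹ * d2 * tt ∈ Q0 := by rw [mem_Q0]; decide +kernel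
theorem ss_mem' : tt⁻¹ * ss * tt ∈ Q0 := by rw [mem_Q0]; decide +kernel

theorem dm_comm {c h : QU} {x y z : F16} (hm : h.m = dm x y z) (hb : h.b = false)
    (e : c * h = h * c) (i j : Fin 3) :
    c.m i j * sf c.b (![x, y, z] j) = ![x, y, z] i * c.m i j := by
  have e1 := congrArg QU.m e
  rw [mul_m, mul_m, hb, hm, tw_false] at e1
  have e2 := congrFun (congrFun e1 i) j
  rw [Matrix.mul_apply, Matrix.mul_apply, Fin.sum_univ_three, Fin.sum_univ_three] at e2
  simp only [tw_apply] at e2
  fin_cases i <;> fin_cases j <;> simpa [dm] using e2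

theorem hC (c : QU) (h : ∀ h ∈ Q0, tt⁻¹ * h * tt ∈ Q0 → c * h = h * c) : c = 1 := by
  have k1 := dm_comm (c := c) rfl rfl (h d1 d1_mem d1_mem')
  have k2 := dm_comm (c := c) rfl rfl (h d2 d2_mem d2_mem')
  have k3 := congrArg QU.m (h ss ss_mem ss_mem')
  have k4 : c.m = tw true c.m := by
    have e : (c * ss).m = c.m := by rw [mul_m]; change c.m * tw c.b 1 = c.m; rw [map_one, mul_one]
    have e' : (ss * c).m = tw true c.m := by
      rw [mul_m]; change 1 * tw true c.m = tw true c.m; rw [one_mul]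
    exact e.symm.trans (k3.trans e')
  cases hb : c.b with
  | false =>
    rw [hb] at k1 k2
    have z01 : c.m 0 1 = 0 := eqz _ _ _ (k1 0 1) (by decide +kernel)
    have z02 : c.m 0 2 = 0 := eqz _ _ _ (k1 0 2) (by decide +kernel)
    have z10 : c.m 1 0 = 0 := eqz _ _ _ (k1 1 0) (by decide +kernel)
    have z12 : c.m 1 2 = 0 := eqz _ _ _ (k1 1 2) (by decide +kernel)
    have z20 : c.m 2 0 = 0 := eqz _ _ _ (k1 2 0) (by decide +kernel)
    have z21 : c.m 2 1 = 0 := eqz _ _ _ (k1 2 1) (by decide +kernel)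
    have hd : ∀ i, c.m i i * F16.cj (c.m i i) = 1 := by
      intro i
      have e := congrFun (congrFun c.uni i) i
      rw [Matrix.mul_apply, Fin.sum_univ_three, Matrix.one_apply_eq] at e
      simp only [Matrix.conjTranspose_apply, F16.star_eq] at e
      fin_cases i <;> simpa [z01, z02, z10, z12, z20, z21] using e
    have hs : ∀ i, F16.cj (c.m i i) = c.m i i := fun i => (congrFun (congrFun k4 i) i).symm
    have h1 : ∀ i, c.m i i = 1 := fun i => eq_one _ (hs i) (hd i)
    apply QU.ext'
    · rw [one_m]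
      ext i j
      fin_cases i <;> fin_cases j <;> simp [z01, z02, z10, z12, z20, z21, h1]
    · rw [hb, one_b]
  | true =>
    exfalso
    rw [hb] at k1 k2
    have z00 : c.m 0 0 = 0 := eqz _ _ _ (k1 0 0) (by decide +kernel)
    have z01 : c.m 0 1 = 0 := eqz _ _ _ (k2 0 1) (by decide +kernel)
    have z02 : c.m 0 2 = 0 := eqz _ _ _ (k1 0 2) (by decide +kernel)
    have e := congrFun (congrFun c.uni 0) 0
    rw [Matrix.mul_apply, Fin.sum_univ_three, Matrix.one_apply_eq, z00, z01, z02] at e
    simp at e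

end Vale.Agent.P183.H552
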