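import Vale.Agent.P183.H552.Asm
import Vale.Agent.P183.H552.Ord
import Vale.Agent.P183.H2.Octa
import Vale.Agent.P183.Bdl.B3
import Vale.Agent.P183.H996.Dual

/-!
The interval above the dicyclic group of order twelve in `SL(2, 343)`, and the two lattices with
eight elements it represents.
-/

set_option autoImplicit false

namespace Vale.Agent.P183.H552

open Vale.Agent.P183 Vale.Agent.P183.H996

/-- Eight overgroups of `mono 3` in `SL(2, 343)`. -/
theorem iso_3840 : Nonempty (FO 8 3840 ≃o {S : Subgroup (SL Q) // mono 3 ≤ S}) :=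
  interval_iso mono_three_octa octa_le yy_mem
    (fun e => by simpa using yy_not_mem (!e)) yy_not_mon prm_cls prm_of_traces

theorem gi8_3840 : GroupInterval (FO 8 3840) :=
  ⟨SL Q, inferInstance, inferInstance, mono 3, iso_3840⟩

theorem r8_3840 : Representable (FO 8 3840) := by
  obtain ⟨e⟩ := iso_3840
  exact Representable.of_iso e (representable_interval (SL Q) (mono 3))

/-- The order dual to `Ord8 twoV`. -/
def twoVd : List (ℕ × ℕ) := [(3, 5), (4, 5), (1, 6), (2, 6)]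

theorem iso_3840' : Nonempty (FO 8 3840 ≃o Ord8 twoVd) := iso_of (by decide +kernel)

theorem dual_twoV : Nonempty (Ord8 twoV ≃o (Ord8 twoVd)ᵒᵈ) := by
  refine ⟨⟨(⟨![7, 5, 6, 1, 2, 3, 4, 0], ![7, 3, 4, 5, 6, 1, 2, 0], by decide, by decide⟩ :
    Fin 8 ≃ Fin 8), ?_⟩⟩
  intro x y
  have h : ∀ x y : Fin 8, (((![7, 5, 6, 1, 2, 3, 4, 0] : Fin 8 → Fin 8) y).val =
      ((![7, 5, 6, 1, 2, 3, 4, 0] : Fin 8 → Fin 8) x).val ∨
      ((![7, 5, 6, 1, 2, 3, 4, 0] : Fin 8 → Fin 8) y).val = 0 ∨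
      ((![7, 5, 6, 1, 2, 3, 4, 0] : Fin 8 → Fin 8) x).val = 7 ∨
      (((![7, 5, 6, 1, 2, 3, 4, 0] : Fin 8 → Fin 8) y).val,
        ((![7, 5, 6, 1, 2, 3, 4, 0] : Fin 8 → Fin 8) x).val) ∈ twoVd) ↔
      (x.val = y.val ∨ x.val = 0 ∨ y.val = 7 ∨ (x.val, y.val) ∈ twoV) := by
    decide +kernel
  exact h x y

theorem gi_twoVd : GroupInterval (Ord8 twoVd) := by
  obtain ⟨e⟩ := iso_3840'
  exact gi8_3840.of_iso e.symm

theorem gi_twoV : GroupInterval (Ord8 twoV) := by
  obtain ⟨e⟩ := dual_twoV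
  exact (GroupInterval.dual gi_twoVd).of_iso e

theorem GroupInterval.rep {L : Type} [LE L] (h : GroupInterval L) : Representable L := by
  obtain ⟨G, i1, i2, H, ⟨e⟩⟩ := h
  exact Representable.of_iso e (representable_interval G H)

theorem r8_1108 : Representable (FO 8 1108) := by
  obtain ⟨e⟩ := iso_1108
  exact Representable.of_iso e (GroupInterval.rep gi_twoV)

end Vale.Agent.P183.H552
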