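import Vale.Agent.P183.H552.Defs
import Mathlib.Tactic.IntervalCases
import Mathlib.GroupTheory.SpecificGroups.Cyclic
import Mathlib.RingTheory.IntegralDomain

/-!
The monomial overgroups.
-/

set_option autoImplicit false

namespace Vale.Agent.P183.H552

open SL

/-- The diagonal matrix of a unit. -/
def dgh : Qˣ →* SL Q where
  toFun u := ⟨(u : Q), 0, 0, ((u⁻¹ : Qˣ) : Q), by simp⟩
  map_one' := by refine SL.ext' ?_ ?_ ?_ ?_ <;> simp
  map_mul' u v := by
    refine SL.ext' ?_ ?_ ?_ ?_ <;> simp [mul_comm]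

/-- The element of order four. -/
def w0 : SL Q := ⟨0, 1, -1, 0, by ring⟩

theorem w0_mem (n : ℕ) : w0 ∈ mono n := Or.inr ⟨rfl, rfl, one_pow _⟩

theorem card_units : Nat.card Qˣ = 342 := by
  rw [Nat.card_units, Nat.card_eq_fintype_card]
  decide +kernel

/-- A primitive sixth root of unity. -/
def u3 : Qˣ := ⟨⟨3, 0, 0⟩, ⟨5, 0, 0⟩, by decide, by decide⟩

theorem order_u3 : orderOf u3 = 6 := by
  rw [orderOf_eq_iff (by norm_num)]
  refine ⟨by decide +kernel, ?_⟩
  intro m hm hm'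
  interval_cases m <;> decide +kernel

theorem dgh_mem {n : ℕ} {u : Qˣ} (h : (u : Q) ^ (2 * n) = 1) : dgh u ∈ mono n :=
  Or.inl ⟨rfl, rfl, h⟩

theorem mono_cls (K : Subgroup (SL Q)) (hH : mono 3 ≤ K) (h : ∀ g ∈ K, Mon g) :
    K = mono 3 ∨ K = mono 9 ∨ K = mono 57 ∨ K = mono 171 := by
  classical
  have hfin : Finite Qˣ := inferInstance
  let _ : Fintype Qˣ := Fintype.ofFinite _
  let μ : Subgroup Qˣ := K.comap dgh
  have hμ : ∀ u, u ∈ μ ↔ dgh u ∈ K := fun u => Iff.rfl
  have h1 : Nat.card μ ∣ 342 := by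
    rw [← card_units]
    exact Subgroup.card_subgroup_dvd_card μ
  have h3 : u3 ∈ μ := hH (dgh_mem (by decide +kernel))
  have h2 : 6 ∣ Nat.card μ := by
    have h4 : orderOf (⟨u3, h3⟩ : μ) ∣ Nat.card μ := orderOf_dvd_natCard _
    rwa [Subgroup.orderOf_mk, order_u3] at h4
  have hpos : 0 < Nat.card μ := Nat.card_pos
  have h5 : ∀ u : Qˣ, u ∈ μ ↔ u ^ Nat.card μ = 1 := by
    have h6 : (Finset.univ.filter fun u : Qˣ => u ∈ μ) =
        Finset.univ.filter fun u : Qˣ => u ^ Nat.card μ = 1 := by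
      refine Finset.eq_of_subset_of_card_le ?_ ?_
      · intro u hu
        rw [Finset.mem_filter] at hu ⊢
        refine ⟨hu.1, ?_⟩
        have h7 : (⟨u, hu.2⟩ : μ) ^ Nat.card μ = 1 := pow_card_eq_one'
        have h8 := congrArg Subtype.val h7
        rwa [Subgroup.coe_pow] at h8
      · refine (IsCyclic.card_pow_eq_one_le hpos).trans ?_
        rw [Nat.card_eq_fintype_card, Fintype.card_subtype]
    intro u
    have h7 := Finset.ext_iff.1 h6 u
    simpa using h7
  have key : ∀ n, Nat.card μ = 2 * n → K = mono n := by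
    intro n hn
    ext g
    have hw : w0 ∈ K := hH (w0_mem 3)
    have hdiag : ∀ g : SL Q, g.q = 0 → g.r = 0 → (g ∈ K ↔ g.p ^ (2 * n) = 1) := by
      intro g hq hr
      have hd := g.det
      rw [hq, zero_mul, sub_zero] at hd
      let u : Qˣ := ⟨g.p, g.s, hd, by rw [mul_comm]; exact hd⟩
      have hg : g = dgh u := SL.ext' rfl hq hr rfl
      rw [hg, ← hμ, h5, hn]
      constructor
      · intro h
        have h8 := congrArg Units.val h
        rw [Units.val_pow_eq_pow_val] at h8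
        exact h8
      · intro h
        apply Units.ext
        rw [Units.val_pow_eq_pow_val]
        exact h
    have hanti : ∀ g : SL Q, g.p = 0 → g.s = 0 → (g ∈ K ↔ g.q ^ (2 * n) = 1) := by
      intro g hp hs
      have h7 : g ∈ K ↔ g * w0⁻¹ ∈ K := (K.mul_mem_cancel_right (K.inv_mem hw)).symm
      rw [h7, hdiag _ (by simp [w0, hp]) (by simp [w0, hs])]
      have h8 : (g * w0⁻¹).p = g.q := by simp [w0, hp]
      rw [h8]
    rw [mem_mono]
    constructor
    · intro hg
      rcases h g hg with ⟨h7, h8⟩ | ⟨h7, h8⟩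
      · exact Or.inl ⟨h7, h8, (hdiag g h7 h8).1 hg⟩
      · exact Or.inr ⟨h7, h8, (hanti g h7 h8).1 hg⟩
    · rintro (⟨h7, h8, h9⟩ | ⟨h7, h8, h9⟩)
      · exact (hdiag g h7 h8).2 h9
      · exact (hanti g h7 h8).2 h9
  have h6 : Nat.card μ ≤ 342 := Nat.le_of_dvd (by norm_num) h1
  obtain ⟨m, hm⟩ := h2
  have h7 : m ∣ 57 := by
    rw [hm] at h1
    have h8 : (342 : ℕ) = 6 * 57 := by norm_num
    rw [h8] at h1
    exact Nat.dvd_of_mul_dvd_mul_left (by norm_num) h1
  have h8 : m ∈ Nat.divisors 57 := Nat.mem_divisors.2 ⟨h7, by norm_num⟩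
  have h9 : Nat.divisors 57 = {1, 3, 19, 57} := by decide +kernel
  rw [h9] at h8
  simp only [Finset.mem_insert, Finset.mem_singleton] at h8
  rcases h8 with rfl | rfl | rfl | rfl
  · exact Or.inl (key 3 (by rw [hm]))
  · exact Or.inr (Or.inl (key 9 (by rw [hm])))
  · exact Or.inr (Or.inr (Or.inl (key 57 (by rw [hm]))))
  · exact Or.inr (Or.inr (Or.inr (key 171 (by rw [hm]))))

end Vale.Agent.P183.H552
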