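import Vale.Agent.P183.H552.Defs
import Vale.Agent.P183.H552.Tr

/-!
Two elements of trace `-1` of `SL(2, 343)`, the trace of whose product is not in the prime field,
generate the group: paths to the trace `3 θ`.
-/

set_option autoImplicit false

namespace Vale.Agent.P183.H552

open SL

/-- The paths to `3 θ`: binary digits from the lowest, then a leading one. -/
def pathTab : List ℕ := [
  1, 1, 1, 1, 1, 1, 1, 1780, 28236, 1936, 462628443, 7059, 7228569, 57828558, 28914276, 220,
  28914576, 3614559, 55, 56477, 451822, 1, 225908, 3564, 445, 903571, 28511, 226192, 225908, 3614286, 226192, 28511,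
  903571, 445, 3564, 220, 28914276, 451822, 56477, 55, 3614559, 28914576, 28236, 1780, 57828558, 7228569, 7059, 462628443,
  1936, 58, 3614314, 225894, 226193, 112955, 3529, 3534, 14118, 115657110, 225895, 7058, 1850513772, 970, 114045, 1807157,
  225909, 925256886, 28274, 3701027547, 231314220, 3614284, 121, 109, 968, 1807142, 6, 3614536, 7228628, 903634, 451784, 28914279,
  56473, 231314212, 903579, 13, 7123, 29, 451817, 14457291, 28916472, 56549, 231314221, 890, 7228644, 56977, 14457256, 451819,
  60, 7, 7066, 234, 14, 28914577, 14457139, 451785, 451790, 117, 28914277, 57022, 3614322, 228091, 14254, 222,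
  115657106, 26, 1782, 3, 14244, 59, 1764, 112954, 484, 7229073, 936, 57828555, 7068, 883, 1807143, 7127,
  15, 903570, 114044, 113098, 14458237, 14137, 14117, 113096, 111, 882, 462628425, 468, 903635, 3533, 57828553, 971,
  3701027544, 7228645, 14255, 28266, 903578, 30, 27, 891, 1937, 1766, 1807141, 1807161, 56532, 28488, 112946, 14119,
  14457288, 56548, 14457138, 112947, 903580, 3563, 113064, 925256851, 1781, 14133, 28238, 1807278, 28916475, 242, 7229118, 451789,
  115657107, 1807279, 485, 228089, 113099, 3561, 903639, 110, 1850513773, 14457290, 14458236, 54, 1767, 3528, 7122, 225892,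
  7067, 1807268, 441, 225911, 903578, 28266, 1766, 1937, 891, 27, 30, 7122, 3528, 225911, 441, 1807268,
  7067, 225892, 110, 903639, 1767, 54, 14458236, 14457290, 1850513773, 115657107, 451789, 3561, 113099, 228089, 485, 1807279,
  14133, 1781, 7229118, 242, 28916475, 1807278, 28238, 14457138, 56548, 925256851, 113064, 3563, 903580, 112947, 1807161, 1807141,
  14457288, 14119, 112946, 28488, 56532, 234, 7066, 451790, 451785, 14457139, 28914577, 14, 3533, 903635, 14255, 7228645,
  3701027544, 971, 57828553, 14117, 14137, 468, 462628425, 882, 111, 113096, 7127, 1807143, 14458237, 113098, 114044, 903570,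
  15, 484, 112954, 883, 7068, 57828555, 936, 7229073, 26, 115657106, 1764, 59, 14244, 3, 1782, 28914277,
  117, 222, 14254, 228091, 3614322, 57022, 3614314, 58, 3534, 3529, 112955, 226193, 225894, 7228644, 890, 7,
  60, 451819, 14457256, 56977, 29, 7123, 231314221, 56549, 28916472, 14457291, 451817, 451784, 903634, 13, 903579, 231314212,
  56473, 28914279, 109, 121, 7228628, 3614536, 6, 1807142, 968, 225909, 1807157, 3614284, 231314220, 3701027547, 28274, 925256886,
  115657110, 14118, 114045, 970, 1850513772, 7058, 225895]

/-- The list of steps coded by a number. -/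
def bitsOf : ℕ → ℕ → List Bool
  | 0, _ => []
  | n + 1, m => if m ≤ 1 then [] else (m % 2 == 1) :: bitsOf n (m / 2)

/-- The path of an element. -/
def path (t : Q) : List Bool := bitsOf 40 (pathTab.getD (t.a.val + 7 * t.b.val + 49 * t.c.val) 1)

theorem path_spec : ∀ t : Q, t.b ≠ 0 ∨ t.c ≠ 0 → (path t).foldl stp t = ⟨0, 3, 0⟩ := by
  decide +kernel

theorem TrS.base {K : Subgroup (SL Q)} {t : Q} (h : TrS K t) (ht : t.b ≠ 0 ∨ t.c ≠ 0) :
    TrS K ⟨0, 3, 0⟩ := by
  rw [← path_spec t ht]
  exact h.steps _

end Vale.Agent.P183.H552
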