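import Vale.Agent.P183.H552.Main
import Mathlib.LinearAlgebra.Matrix.SpecialLinearGroup
import Mathlib.FieldTheory.Finite.GaloisField
import Mathlib.Tactic.FinCases

/-!
The interval in the special linear group over any field with `343` elements.
-/

set_option autoImplicit false

namespace Vale.Agent.P183.H552

open Vale.Agent.P183 Vale.Agent.P183.H996

/-- The comparison with the special linear group of Mathlib, over an isomorphic ring. -/
def toSL {F : Type} [Field F] (e : F ≃+* Q) : Matrix.SpecialLinearGroup (Fin 2) F ≃* SL Q where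
  toFun A := ⟨e (A.1 0 0), e (A.1 0 1), e (A.1 1 0), e (A.1 1 1), by
    have h := A.2
    rw [Matrix.det_fin_two] at h
    rw [← map_mul, ← map_mul, ← map_sub, h, map_one]⟩
  invFun g := ⟨!![e.symm g.p, e.symm g.q; e.symm g.r, e.symm g.s], by
    rw [Matrix.det_fin_two_of, ← map_mul, ← map_mul, ← map_sub, g.det, map_one]⟩
  left_inv A := by
    apply Subtype.ext
    ext i j
    fin_cases i <;> fin_cases j <;> simp
  right_inv g := by
    refine SL.ext' ?_ ?_ ?_ ?_ <;> simp
  map_mul' A B := by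
    refine SL.ext' ?_ ?_ ?_ ?_ <;>
      simp [Matrix.SpecialLinearGroup.coe_mul, Matrix.mul_apply, Fin.sum_univ_two]

theorem interval_std (F : Type) [Field F] (hF : Nat.card F = 343) :
    ∃ H : Subgroup (Matrix.SpecialLinearGroup (Fin 2) F),
      (∀ A : Matrix.SpecialLinearGroup (Fin 2) F, A ∈ H ↔
        (A.1 0 1 = 0 ∧ A.1 1 0 = 0 ∧ A.1 0 0 ^ 6 = 1) ∨
          (A.1 0 0 = 0 ∧ A.1 1 1 = 0 ∧ A.1 0 1 ^ 6 = 1)) ∧
      Nonempty (Ord8 twoVd ≃o {S : Subgroup (Matrix.SpecialLinearGroup (Fin 2) F) // H ≤ S}) := by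
  have : Finite F := Nat.finite_of_card_ne_zero (by rw [hF]; norm_num)
  let _ : Fintype F := Fintype.ofFinite F
  have hQ : Nat.card Q = 343 := by
    rw [Nat.card_eq_fintype_card]
    decide +kernel
  let e : F ≃+* Q := FiniteField.ringEquivOfCardEq (by
    first
      | rw [hF, hQ]
      | rw [← Nat.card_eq_fintype_card, ← Nat.card_eq_fintype_card, hF, hQ])
  let φ : Matrix.SpecialLinearGroup (Fin 2) F ≃* SL Q := toSL e
  refine ⟨(mono 3).comap φ.toMonoidHom, ?_, ?_⟩
  · intro A
    have h1 : A ∈ (mono 3).comap φ.toMonoidHom ↔ φ A ∈ mono 3 := Iff.rfl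
    rw [h1, mem_mono]
    have h2 : ∀ z : F, e z = 0 ↔ z = 0 := fun z => EmbeddingLike.map_eq_zero_iff
    have h3 : ∀ z : F, (e z) ^ (2 * 3) = 1 ↔ z ^ 6 = 1 := by
      intro z
      rw [← map_pow]
      exact EmbeddingLike.map_eq_one_iff
    change (e _ = 0 ∧ e _ = 0 ∧ e _ ^ (2 * 3) = 1) ∨ (e _ = 0 ∧ e _ = 0 ∧ e _ ^ (2 * 3) = 1) ↔ _
    rw [h2, h2, h2, h2, h3, h3]
  · obtain ⟨i⟩ := iso_3840'
    obtain ⟨j⟩ := iso_3840
    let k : {S : Subgroup (SL Q) // mono 3 ≤ S} ≃o
        {S : Subgroup (Matrix.SpecialLinearGroup (Fin 2) F) //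
          (mono 3).comap φ.toMonoidHom ≤ S} :=
      { toFun := fun S => ⟨S.1.comap φ.toMonoidHom, Subgroup.comap_mono S.2⟩
        invFun := fun S => ⟨S.1.map φ.toMonoidHom, by
          intro g hg
          refine ⟨φ.symm g, S.2 ?_, by simp⟩
          change φ (φ.symm g) ∈ mono 3
          simpa using hg⟩
        left_inv := fun S => Subtype.ext (Subgroup.map_comap_eq_self_of_surjective
          φ.surjective S.1)
        right_inv := fun S => Subtype.ext (Subgroup.comap_map_eq_self_of_injective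
          φ.injective S.1)
        map_rel_iff' := by
          intro S T
          exact Subgroup.comap_le_comap_of_surjective φ.surjective }
    exact ⟨(i.symm.trans j).trans k⟩

end Vale.Agent.P183.H552
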