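import Vale.Agent.P183.H552.Main
import Vale.Agent.P183.H288.Four

/-!
All lattices with at most eight elements are representable, with at most three possible exceptions
up to isomorphism and duality.
-/

set_option autoImplicit false

namespace Vale.Agent.P183.H552

open Vale.Agent.P183 Vale.Agent.P183.H288 Vale.Agent.P183.H996

theorem three_fo (L : Type) [Lattice L] [Finite L] [Nonempty L] (h : Nat.card L ≤ 8) :
    Representable L ∨ (Nonempty (L ≃o FO 8 78) ∨ Nonempty (L ≃o (FO 8 78)ᵒᵈ)) ∨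
      (Nonempty (L ≃o FO 8 121) ∨ Nonempty (L ≃o (FO 8 121)ᵒᵈ)) ∨
      (Nonempty (L ≃o FO 8 510) ∨ Nonempty (L ≃o (FO 8 510)ᵒᵈ)) := by
  rcases rep_or_exc L h with h1 | ⟨c, hc, ⟨e⟩⟩
  · exact Or.inl h1
  simp only [List.mem_cons, List.not_mem_nil, or_false] at hc
  rcases hc with rfl | rfl | rfl | rfl | rfl | rfl | rfl | rfl | rfl | rfl | rfl
  · exact Or.inl (Representable.of_iso e r8_11s)
  · exact Or.inl (Representable.of_iso e r8_14)
  · exact Or.inl (Representable.of_iso e r8_56s)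
  · exact Or.inr (Or.inl (Or.inl ⟨e⟩))
  · exact Or.inl (Representable.of_iso e r8_86)
  · obtain ⟨e'⟩ := dual_iso (n := 8) (b := 120) (c := 78) [7, 3, 4, 5, 1, 2, 6, 0]
      [7, 4, 5, 1, 2, 3, 6, 0] (by decide +kernel)
    exact Or.inr (Or.inl (Or.inr ⟨e.trans e'⟩))
  · exact Or.inr (Or.inr (Or.inl (Or.inl ⟨e⟩)))
  · exact Or.inl (Representable.of_iso e r8_232)
  · exact Or.inr (Or.inr (Or.inr (Or.inl ⟨e⟩)))
  · exact Or.inl (Representable.of_iso e r8_1108)
  · exact Or.inl (Representable.of_iso e r8_3840)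

/-- **Lattices with at most eight elements.** All of them are representable, with at most three
possible exceptions up to isomorphism and duality. -/
theorem three_exceptions (L : Type) [Lattice L] [Finite L] [Nonempty L] (h : Nat.card L ≤ 8) :
    Representable L ∨ ∃ i < 3, Nonempty (L ≃o Ord8 (exc3 i)) ∨
      Nonempty (L ≃o (Ord8 (exc3 i))ᵒᵈ) := by
  obtain ⟨e0⟩ := iso_78
  obtain ⟨e1⟩ := iso_121
  obtain ⟨e2⟩ := iso_510
  rcases three_fo L h with h1 | (⟨⟨e⟩⟩ | ⟨⟨e⟩⟩) | (⟨⟨e⟩⟩ | ⟨⟨e⟩⟩) | (⟨⟨e⟩⟩ | ⟨⟨e⟩⟩)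
  · exact Or.inl h1
  · exact Or.inr ⟨0, by norm_num, Or.inl ⟨e.trans e0⟩⟩
  · exact Or.inr ⟨0, by norm_num, Or.inr ⟨e.trans e0.dual⟩⟩
  · exact Or.inr ⟨1, by norm_num, Or.inl ⟨e.trans e1⟩⟩
  · exact Or.inr ⟨1, by norm_num, Or.inr ⟨e.trans e1.dual⟩⟩
  · exact Or.inr ⟨2, by norm_num, Or.inl ⟨e.trans e2⟩⟩
  · exact Or.inr ⟨2, by norm_num, Or.inr ⟨e.trans e2.dual⟩⟩

theorem FO.rep_od {b : ℕ} (hb : isLat 8 b = true) (h : Representable (FO 8 b)) :
    Representable (FO 8 b)ᵒᵈ := by
  let _ : PartialOrder (FO 8 b) := FO.po (isLat_po hb)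
  exact Representable.dual h

/-- The case of at most eight elements is equivalent to three lattices. -/
theorem eight_iff : (∀ (L : Type) [Lattice L] [Finite L] [Nonempty L], Nat.card L ≤ 8 →
    Representable L) ↔ ∀ i < 3, Representable (Ord8 (exc3 i)) := by
  obtain ⟨e0⟩ := iso_78
  obtain ⟨e1⟩ := iso_121
  obtain ⟨e2⟩ := iso_510
  have l0 : isLat 8 78 = true := by decide +kernel
  have l1 : isLat 8 121 = true := by decide +kernel
  have l2 : isLat 8 510 = true := by decide +kernel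
  constructor
  · intro h
    have key : ∀ b : ℕ, isLat 8 b = true → Representable (FO 8 b) := by
      intro b hb
      let _ : Lattice (FO 8 b) := FO.lat hb
      have : Finite (FO 8 b) := inferInstanceAs (Finite (Fin 8))
      have : Nonempty (FO 8 b) := inferInstanceAs (Nonempty (Fin 8))
      refine h (FO 8 b) ?_
      have h1 : Nat.card (FO 8 b) = Nat.card (Fin 8) := rfl
      rw [h1]
      simp
    intro i hi
    interval_cases i
    · exact Representable.of_iso e0.symm (key 78 l0)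
    · exact Representable.of_iso e1.symm (key 121 l1)
    · exact Representable.of_iso e2.symm (key 510 l2)
  · intro h L _ _ _ hL
    have h0 : Representable (FO 8 78) := Representable.of_iso e0 (h 0 (by norm_num))
    have h1 : Representable (FO 8 121) := Representable.of_iso e1 (h 1 (by norm_num))
    have h2 : Representable (FO 8 510) := Representable.of_iso e2 (h 2 (by norm_num))
    rcases three_fo L hL with h3 | (⟨⟨e⟩⟩ | ⟨⟨e⟩⟩) | (⟨⟨e⟩⟩ | ⟨⟨e⟩⟩) | (⟨⟨e⟩⟩ | ⟨⟨e⟩⟩)
    · exact h3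
    · exact Representable.of_iso e h0
    · exact Representable.of_iso e (FO.rep_od l0 h0)
    · exact Representable.of_iso e h1
    · exact Representable.of_iso e (FO.rep_od l1 h1)
    · exact Representable.of_iso e h2
    · exact Representable.of_iso e (FO.rep_od l2 h2)

end Vale.Agent.P183.H552
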