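import Vale.Agent.P183.H552.Three

/-!
If the lattice with middle part `1, 2 < 3 < 4, 5` and `6` isolated is representable, then all
lattices with at most eight elements are representable, with at most two possible exceptions up to
isomorphism and duality.
-/

set_option autoImplicit false

namespace Vale.Agent.P183.H552

open Vale.Agent.P183 Vale.Agent.P183.H288 Vale.Agent.P183.H996

theorem two_fo (hr : Representable (Ord8 (exc3 2))) (L : Type) [Lattice L] [Finite L] [Nonempty L]
    (h : Nat.card L ≤ 8) :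
    Representable L ∨ (Nonempty (L ≃o FO 8 78) ∨ Nonempty (L ≃o (FO 8 78)ᵒᵈ)) ∨
      (Nonempty (L ≃o FO 8 121) ∨ Nonempty (L ≃o (FO 8 121)ᵒᵈ)) := by
  obtain ⟨e2⟩ := iso_510
  have l2 : isLat 8 510 = true := by decide +kernel
  have h2 : Representable (FO 8 510) := Representable.of_iso e2 hr
  rcases three_fo L h with h1 | h1 | h1 | (⟨⟨e⟩⟩ | ⟨⟨e⟩⟩)
  · exact Or.inl h1
  · exact Or.inr (Or.inl h1)
  · exact Or.inr (Or.inr h1)
  · exact Or.inl (Representable.of_iso e h2)
  · exact Or.inl (Representable.of_iso e (FO.rep_od l2 h2))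

/-- **Lattices with at most eight elements.** All of them are representable, with at most two
possible exceptions up to isomorphism and duality. -/
theorem two_exceptions (hr : Representable (Ord8 (exc3 2))) (L : Type) [Lattice L] [Finite L]
    [Nonempty L] (h : Nat.card L ≤ 8) :
    Representable L ∨ ∃ i < 2, Nonempty (L ≃o Ord8 (exc3 i)) ∨
      Nonempty (L ≃o (Ord8 (exc3 i))ᵒᵈ) := by
  obtain ⟨e0⟩ := iso_78
  obtain ⟨e1⟩ := iso_121
  rcases two_fo hr L h with h1 | (⟨⟨e⟩⟩ | ⟨⟨e⟩⟩) | (⟨⟨e⟩⟩ | ⟨⟨e⟩⟩)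
  · exact Or.inl h1
  · exact Or.inr ⟨0, by norm_num, Or.inl ⟨e.trans e0⟩⟩
  · exact Or.inr ⟨0, by norm_num, Or.inr ⟨e.trans e0.dual⟩⟩
  · exact Or.inr ⟨1, by norm_num, Or.inl ⟨e.trans e1⟩⟩
  · exact Or.inr ⟨1, by norm_num, Or.inr ⟨e.trans e1.dual⟩⟩

/-- The case of at most eight elements is equivalent to two lattices. -/
theorem eight_iff_two (hr : Representable (Ord8 (exc3 2))) :
    (∀ (L : Type) [Lattice L] [Finite L] [Nonempty L], Nat.card L ≤ 8 → Representable L) ↔
      ∀ i < 2, Representable (Ord8 (exc3 i)) := by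
  refine eight_iff.trans ⟨fun h i hi => h i (by omega), fun h i hi => ?_⟩
  interval_cases i
  · exact h 0 (by norm_num)
  · exact h 1 (by norm_num)
  · exact hr

end Vale.Agent.P183.H552
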