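import Vale.Agent.P183.H552.F16
import Mathlib.LinearAlgebra.Matrix.NonsingularInverse
import Mathlib.Data.Matrix.Mul
import Mathlib.Algebra.Group.MinimalAxioms
import Mathlib.Tactic.NoncommRing

/-!
The group `SU(3, 4) : 2` and its subgroups.
-/

set_option autoImplicit false

namespace Vale.Agent.P183.H552

open Matrix

abbrev M3 : Type := Matrix (Fin 3) (Fin 3) F16

/-- `cj` or the identity -/
def cb (b : Bool) : F16 →+* F16 := bif b then F16.cj else RingHom.id F16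

@[simp] theorem cb_false : cb false = RingHom.id F16 := rfl
@[simp] theorem cb_true : cb true = F16.cj := rfl

theorem cb_cb (b b' : Bool) (x : F16) : cb b (cb b' x) = cb (xor b b') x := by
  cases b <;> cases b' <;> simp [cb]

theorem cb_cj (b : Bool) (x : F16) : cb b (F16.cj x) = F16.cj (cb b x) := by
  cases b <;> simp [cb]

/-- entrywise -/
def mc (b : Bool) (m : M3) : M3 := m.map (cb b)

@[simp] theorem mc_apply (b : Bool) (m : M3) (i j : Fin 3) : mc b m i j = cb b (m i j) := rfl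

theorem mc_mul (b : Bool) (m n : M3) : mc b (m * n) = mc b m * mc b n := by
  unfold mc; exact Matrix.map_mul

theorem mc_mc (b b' : Bool) (m : M3) : mc b (mc b' m) = mc (xor b b') m := by
  refine Matrix.ext fun i j => ?_; simp [cb_cb]

theorem mc_one (b : Bool) : mc b 1 = 1 := by
  unfold mc; exact Matrix.map_one _ (map_zero _) (map_one _)

theorem mc_false (m : M3) : mc false m = m := by refine Matrix.ext fun i j => ?_; simp

theorem det_mc (b : Bool) (m : M3) : (mc b m).det = cb b m.det := by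
  unfold mc; exact ((cb b).map_det m).symm

/-- conjugate transpose -/
def st (m : M3) : M3 := (mc true m)ᵀ

@[simp] theorem st_apply (m : M3) (i j : Fin 3) : st m i j = F16.cj (m j i) := rfl

theorem st_st (m : M3) : st (st m) = m := by refine Matrix.ext fun i j => ?_; simp

theorem st_mul (m n : M3) : st (m * n) = st n * st m := by
  unfold st; rw [mc_mul, Matrix.transpose_mul]

theorem mc_st (b : Bool) (m : M3) : mc b (st m) = st (mc b m) := by
  refine Matrix.ext fun i j => ?_; simp [cb_cj]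

theorem det_st (m : M3) : (st m).det = F16.cj m.det := by
  unfold st; rw [Matrix.det_transpose, det_mc]; rfl

/-- `SU(3, 4) : 2` -/
structure U : Type where
  m : M3
  b : Bool
  h : m * st m = 1
  dt : m.det = 1

namespace U

theorem ext {x y : U} (h1 : x.m = y.m) (h2 : x.b = y.b) : x = y := by
  cases x; cases y; cases h1; cases h2; rfl

instance : DecidableEq U := fun x y =>
  decidable_of_iff (x.m = y.m ∧ x.b = y.b) ⟨fun h => U.ext h.1 h.2, fun h => by rw [h]; simp⟩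

theorem h' (x : U) : st x.m * x.m = 1 := mul_eq_one_comm.1 x.h

instance : Mul U := ⟨fun x y => ⟨x.m * mc x.b y.m, xor x.b y.b, by
  rw [st_mul, Matrix.mul_assoc, ← Matrix.mul_assoc (mc x.b y.m), ← mc_st, ← mc_mul, y.h, mc_one,
    Matrix.one_mul, x.h], by
  rw [Matrix.det_mul, det_mc, x.dt, y.dt, map_one, one_mul]⟩⟩

instance : One U := ⟨⟨1, false, by
  have : st 1 = 1 := by unfold st; rw [mc_one, Matrix.transpose_one]
  rw [this, Matrix.one_mul], Matrix.det_one⟩⟩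

instance : Inv U := ⟨fun x => ⟨mc x.b (st x.m), x.b, by
  rw [← mc_st, st_st, ← mc_mul, x.h', mc_one], by
  rw [det_mc, det_st, x.dt, map_one, map_one]⟩⟩

@[simp] theorem mul_m (x y : U) : (x * y).m = x.m * mc x.b y.m := rfl
@[simp] theorem mul_b (x y : U) : (x * y).b = xor x.b y.b := rfl
@[simp] theorem one_m : (1 : U).m = 1 := rfl
@[simp] theorem one_b : (1 : U).b = false := rfl
@[simp] theorem inv_m (x : U) : (x⁻¹).m = mc x.b (st x.m) := rfl
@[simp] theorem inv_b (x : U) : (x⁻¹).b = x.b := rfl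

instance : Group U := Group.ofLeftAxioms
  (fun x y z => U.ext (by simp only [mul_m, mul_b, mc_mul, mc_mc, Matrix.mul_assoc])
    (by simp only [mul_b, Bool.xor_assoc]))
  (fun x => U.ext (by rw [mul_m, one_m, one_b, mc_false, Matrix.one_mul]) (by simp))
  (fun x => U.ext (by rw [mul_m, inv_m, inv_b, ← mc_mul, x.h', mc_one]; rfl) (by simp))

instance : Finite U := by
  refine Finite.of_injective (fun x : U => (x.m, x.b)) fun x y h => ?_
  exact U.ext (congrArg Prod.fst h) (congrArg Prod.snd h)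

end U

/-- The normal subgroup of index two. -/
def TT : Subgroup U where
  carrier := {x | x.b = false}
  mul_mem' {x y} hx hy := by
    change xor x.b y.b = false
    rw [show x.b = false from hx, show y.b = false from hy]; rfl
  one_mem' := rfl
  inv_mem' {x} hx := hx

@[simp] theorem mem_TT {x : U} : x ∈ TT ↔ x.b = false := Iff.rfl

instance : TT.Normal := ⟨fun x hx g => by
  rw [mem_TT] at hx ⊢
  simp [hx]⟩

/-- The stabiliser of the first coordinate line. -/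
def QQ : Subgroup U where
  carrier := {x | x.m 1 0 = 0 ∧ x.m 2 0 = 0 ∧ x.m 0 1 = 0 ∧ x.m 0 2 = 0}
  mul_mem' {x y} hx hy := by
    obtain ⟨h1, h2, h3, h4⟩ := hx
    obtain ⟨k1, k2, k3, k4⟩ := hy
    refine ⟨?_, ?_, ?_, ?_⟩ <;>
      simp [Matrix.mul_apply, Fin.sum_univ_three, h1, h2, h3, h4, k1, k2, k3, k4]
  one_mem' := by refine ⟨?_, ?_, ?_, ?_⟩ <;> simp
  inv_mem' {x} hx := by
    obtain ⟨h1, h2, h3, h4⟩ := hx
    refine ⟨?_, ?_, ?_, ?_⟩ <;> simp [h1, h2, h3, h4]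

theorem mem_QQ {x : U} : x ∈ QQ ↔ x.m 1 0 = 0 ∧ x.m 2 0 = 0 ∧ x.m 0 1 = 0 ∧ x.m 0 2 = 0 := Iff.rfl

/-- The scalars on the last two coordinates. -/
def AA : Subgroup U where
  carrier := {x | x ∈ QQ ∧ x.b = false ∧ x.m 1 2 = 0 ∧ x.m 2 1 = 0 ∧ x.m 1 1 = x.m 2 2}
  mul_mem' {x y} hx hy := by
    obtain ⟨hq, h0, h1, h2, h3⟩ := hx
    obtain ⟨kq, k0, k1, k2, k3⟩ := hy
    obtain ⟨q1, q2, q3, q4⟩ := hq
    obtain ⟨p1, p2, p3, p4⟩ := kq
    refine ⟨QQ.mul_mem ⟨q1, q2, q3, q4⟩ ⟨p1, p2, p3, p4⟩, ?_, ?_, ?_, ?_⟩ <;>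
      simp [Matrix.mul_apply, Fin.sum_univ_three, h0, h1, h2, h3, k0, k1, k2, k3, q1, q2, q3, q4,
        p1, p2, p3, p4]
  one_mem' := by refine ⟨QQ.one_mem, ?_, ?_, ?_, ?_⟩ <;> simp
  inv_mem' {x} hx := by
    obtain ⟨hq, h0, h1, h2, h3⟩ := hx
    refine ⟨QQ.inv_mem hq, ?_, ?_, ?_, ?_⟩ <;> simp [h0, h1, h2, h3]

theorem mem_AA {x : U} : x ∈ AA ↔
    x ∈ QQ ∧ x.b = false ∧ x.m 1 2 = 0 ∧ x.m 2 1 = 0 ∧ x.m 1 1 = x.m 2 2 := Iff.rfl

/-- The special unitary group on the last two coordinates. -/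
def BB : Subgroup U where
  carrier := {x | x ∈ QQ ∧ x.b = false ∧ x.m 0 0 = 1}
  mul_mem' {x y} hx hy := by
    obtain ⟨hq, h0, h1⟩ := hx
    obtain ⟨kq, k0, k1⟩ := hy
    obtain ⟨q1, q2, q3, q4⟩ := hq
    obtain ⟨p1, p2, p3, p4⟩ := kq
    refine ⟨QQ.mul_mem ⟨q1, q2, q3, q4⟩ ⟨p1, p2, p3, p4⟩, ?_, ?_⟩ <;>
      simp [Matrix.mul_apply, Fin.sum_univ_three, h0, h1, k0, k1, q1, q2, q3, q4, p1, p2, p3, p4]
  one_mem' := by refine ⟨QQ.one_mem, ?_, ?_⟩ <;> simp
  inv_mem' {x} hx := by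
    obtain ⟨hq, h0, h1⟩ := hx
    refine ⟨QQ.inv_mem hq, ?_, ?_⟩ <;> simp [h0, h1]

theorem mem_BB {x : U} : x ∈ BB ↔ x ∈ QQ ∧ x.b = false ∧ x.m 0 0 = 1 := Iff.rfl

end Vale.Agent.P183.H552
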